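import Mathlib

/-!
Row 322 (S0499).  Gaussian facts: slabs, tails and the mean volume of the image of a ball.
-/

set_option autoImplicit false

namespace Crest.Agent.R322

open MeasureTheory Metric Set Module ProbabilityTheory
open scoped ENNReal RealInnerProductSpace

variable {E : Type*} [NormedAddCommGroup E] [InnerProductSpace ℝ E] [FiniteDimensional ℝ E]
  [MeasurableSpace E] [BorelSpace E]

lemma gaussianReal_le (A : Set ℝ) (hA : MeasurableSet A) :
    gaussianReal 0 1 A ≤ 2⁻¹ * volume A := by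
  rw [gaussianReal_apply 0 one_ne_zero, ← setLIntegral_const]
  refine setLIntegral_mono' hA fun x _ => ?_
  rw [gaussianPDF, gaussianPDFReal]
  have h1 : Real.exp (-(x - 0) ^ 2 / (2 * ((1 : NNReal) : ℝ))) ≤ 1 := by
    rw [Real.exp_le_one_iff]
    have := sq_nonneg (x - 0)
    simp only [NNReal.coe_one]
    linarith
  have h2 : (2 : ℝ) ≤ √(2 * Real.pi * ((1 : NNReal) : ℝ)) := by
    refine Real.le_sqrt_of_sq_le ?_
    have := Real.pi_gt_three
    simp only [NNReal.coe_one]
    linarith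
  have h3 : (√(2 * Real.pi * ((1 : NNReal) : ℝ)))⁻¹ ≤ 2⁻¹ := inv_anti₀ (by norm_num) h2
  calc ENNReal.ofReal _ ≤ ENNReal.ofReal (2⁻¹ * 1) := by
        refine ENNReal.ofReal_le_ofReal ?_
        gcongr
    _ = 2⁻¹ := by rw [mul_one, ENNReal.ofReal_inv_of_pos (by norm_num)]; simp

/-- replacing one coordinate of a standard Gaussian vector by an independent one -/
lemma stdGaussian_resample (e : E) (he : ‖e‖ = 1) :
    ((stdGaussian E).prod (gaussianReal 0 1)).map (fun p : E × ℝ => p.1 - ⟪p.1, e⟫ • e + p.2 • e)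
      = stdGaussian E := by
  apply Measure.ext_of_charFun
  ext t
  rw [charFun_apply, integral_map (Measurable.aemeasurable (by fun_prop))
    (Measurable.aestronglyMeasurable (by fun_prop))]
  have h1 : ∀ p : E × ℝ, Complex.exp ((⟪p.1 - ⟪p.1, e⟫ • e + p.2 • e, t⟫ : ℝ) * Complex.I) =
      Complex.exp ((⟪p.1, t - ⟪t, e⟫ • e⟫ : ℝ) * Complex.I) *
        Complex.exp ((⟪t, e⟫ : ℝ) * p.2 * Complex.I) := by
    intro p
    rw [← Complex.exp_add]
    congr 1
    simp only [inner_add_left, inner_sub_left, inner_sub_right, real_inner_smul_left,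
      real_inner_smul_right, real_inner_comm e t]
    push_cast
    ring
  simp_rw [h1]
  rw [integral_prod_mul (fun x : E => Complex.exp ((⟪x, t - ⟪t, e⟫ • e⟫ : ℝ) * Complex.I))
    (fun g : ℝ => Complex.exp ((⟪t, e⟫ : ℝ) * g * Complex.I)), ← charFun_apply,
    ← charFun_apply_real, charFun_stdGaussian, charFun_stdGaussian, charFun_gaussianReal,
    ← Complex.exp_add]
  congr 1
  have h2 : ‖t - ⟪t, e⟫ • e‖ ^ 2 = ‖t‖ ^ 2 - ⟪t, e⟫ ^ 2 := by
    rw [norm_sub_sq_real, real_inner_smul_right, norm_smul, he, Real.norm_eq_abs, mul_one, sq_abs]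
    ring
  have h3 : ((‖t - ⟪t, e⟫ • e‖ : ℝ) : ℂ) ^ 2 = (‖t‖ : ℂ) ^ 2 - ((⟪t, e⟫ : ℝ) : ℂ) ^ 2 := by
    exact_mod_cast h2
  rw [h3]
  simp only [Complex.ofReal_zero, NNReal.coe_one, Complex.ofReal_one]
  ring

/-- anticoncentration of one more linear form, independently of an event invariant along `e` -/
lemma slab (A : Set E) (hA : MeasurableSet A) (e : E) (he : ‖e‖ = 1)
    (hinv : ∀ x (t : ℝ), x + t • e ∈ A → x ∈ A) (u : E) {δ η : ℝ} (hδ : 0 < δ)
    (hu : ⟪e, u⟫ = δ) :
    stdGaussian E (A ∩ {x | |⟪x, u⟫| ≤ η}) ≤ stdGaussian E A * ENNReal.ofReal (η / δ) := by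
  have hS : MeasurableSet (A ∩ {x : E | |⟪x, u⟫| ≤ η}) :=
    hA.inter (isClosed_le (by fun_prop) continuous_const).measurableSet
  have hf : Measurable (fun p : E × ℝ => p.1 - ⟪p.1, e⟫ • e + p.2 • e) := by fun_prop
  conv_lhs => rw [← stdGaussian_resample e he]
  rw [Measure.map_apply hf hS, Measure.prod_apply (hf hS), mul_comm, ← setLIntegral_const,
    ← lintegral_indicator hA]
  refine lintegral_mono fun x => ?_
  by_cases hx : x ∈ A
  · rw [indicator_of_mem hx]
    set c : ℝ := ⟪x - ⟪x, e⟫ • e, u⟫ with hc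
    refine le_trans (measure_mono (t := Icc ((-η - c) / δ) ((η - c) / δ)) fun g hg => ?_) ?_
    · have h := hg.2
      simp only [mem_ofPred_eq, inner_add_left, real_inner_smul_left, hu] at h
      rw [← hc, abs_le] at h
      constructor
      · rw [div_le_iff₀ hδ]; linarith [h.1]
      · rw [le_div_iff₀ hδ]; linarith [h.2]
    · refine (gaussianReal_le _ measurableSet_Icc).trans (le_of_eq ?_)
      rw [Real.volume_Icc]
      have : (η - c) / δ - (-η - c) / δ = 2 * (η / δ) := by ring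
      rw [this, ENNReal.ofReal_mul (by norm_num), ENNReal.ofReal_ofNat, ← mul_assoc,
        ENNReal.inv_mul_cancel (by norm_num) (by norm_num), one_mul]
  · rw [indicator_of_notMem hx]
    have : Prod.mk x ⁻¹' ((fun p : E × ℝ => p.1 - ⟪p.1, e⟫ • e + p.2 • e) ⁻¹'
        (A ∩ {x | |⟪x, u⟫| ≤ η})) = ∅ := by
      ext g
      simp only [mem_preimage, mem_inter_iff, mem_empty_iff_false, iff_false, not_and]
      intro h
      refine absurd (hinv x (g - ⟪x, e⟫) ?_) hx
      convert h using 1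
      rw [sub_smul]; abel
    rw [this]; simp

/-- a unit combination of independent standard Gaussian vectors is standard Gaussian -/
lemma stdGaussian_comb {k : ℕ} (z : Fin k → ℝ) (hz : ∑ j, z j ^ 2 = 1) :
    (Measure.pi fun _ : Fin k => stdGaussian E).map (fun X => ∑ j, z j • X j) = stdGaussian E := by
  apply Measure.ext_of_charFun
  ext t
  rw [charFun_apply, integral_map (Measurable.aemeasurable (by fun_prop))
    (Measurable.aestronglyMeasurable (by fun_prop))]
  simp_rw [sum_inner, Complex.ofReal_sum, Finset.sum_mul, Complex.exp_sum, real_inner_smul_left,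
    ← real_inner_smul_right]
  rw [integral_fintype_prod_eq_prod
    (f := fun j (x : E) => Complex.exp ((⟪x, z j • t⟫ : ℝ) * Complex.I))]
  simp_rw [← charFun_apply, charFun_stdGaussian, ← Complex.exp_sum]
  congr 1
  have h : ∀ j, ((‖z j • t‖ : ℝ) : ℂ) ^ 2 = (z j : ℂ) ^ 2 * (‖t‖ : ℂ) ^ 2 := by
    intro j
    have : ‖z j • t‖ ^ 2 = z j ^ 2 * ‖t‖ ^ 2 := by
      rw [norm_smul, mul_pow, Real.norm_eq_abs, sq_abs]
    exact_mod_cast this
  have hz' : ∑ j, (z j : ℂ) ^ 2 = 1 := by exact_mod_cast hz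
  simp_rw [h, ← Finset.sum_div, Finset.sum_neg_distrib, ← Finset.sum_mul, hz', one_mul]

lemma gauss_exp_eq (x : ℝ) : gaussianPDFReal 0 1 x * Real.exp (x ^ 2 / 4) =
    (√(2 * Real.pi))⁻¹ * Real.exp (-(1 / 4) * x ^ 2) := by
  rw [gaussianPDFReal, mul_assoc, ← Real.exp_add]
  simp only [NNReal.coe_one, mul_one, sub_zero]
  congr 2
  ring

lemma integrable_exp_sq : Integrable (fun x : ℝ => Real.exp (x ^ 2 / 4)) (gaussianReal 0 1) := by
  rw [gaussianReal_of_var_ne_zero 0 one_ne_zero,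
    integrable_withDensity_iff_integrable_smul' (measurable_gaussianPDF 0 1)
      (ae_of_all _ fun _ => gaussianPDF_lt_top)]
  simp_rw [toReal_gaussianPDF, smul_eq_mul, gauss_exp_eq]
  exact (integrable_exp_neg_mul_sq (by norm_num)).const_mul _

lemma integral_exp_sq_le : ∫ x, Real.exp (x ^ 2 / 4) ∂(gaussianReal 0 1) ≤ 2 := by
  rw [integral_gaussianReal_eq_integral_smul one_ne_zero]
  simp_rw [smul_eq_mul, gauss_exp_eq]
  rw [integral_const_mul, integral_gaussian]
  have hpi := Real.pi_pos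
  rw [inv_mul_le_iff₀ (by positivity)]
  have : √(2 * Real.pi) * 2 = √(2 * Real.pi * 4) := by
    rw [Real.sqrt_mul (x := 2 * Real.pi) (by positivity) 4, show (4 : ℝ) = 2 ^ 2 by norm_num,
      Real.sqrt_sq (by norm_num)]
  rw [this]
  exact Real.sqrt_le_sqrt (by linarith)

lemma lintegral_exp_norm_sq :
    ∫⁻ x, ENNReal.ofReal (Real.exp (‖x‖ ^ 2 / 4)) ∂(stdGaussian E) ≤ 2 ^ finrank ℝ E := by
  rw [stdGaussian, lintegral_map (by fun_prop) (by fun_prop)]
  have h : ∀ x : Fin (finrank ℝ E) → ℝ,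
      Real.exp (‖∑ i, x i • stdOrthonormalBasis ℝ E i‖ ^ 2 / 4) = ∏ i, Real.exp (x i ^ 2 / 4) := by
    intro x
    rw [← Real.exp_sum, ← Finset.sum_div]
    congr 2
    rw [← (stdOrthonormalBasis ℝ E).sum_sq_inner_right]
    refine Finset.sum_congr rfl fun i _ => ?_
    rw [(stdOrthonormalBasis ℝ E).orthonormal.inner_right_fintype]
  simp_rw [h]
  rw [← ofReal_integral_eq_lintegral_ofReal
    (Integrable.fintype_prod (f := fun _ (x : ℝ) => Real.exp (x ^ 2 / 4))
      fun _ => integrable_exp_sq)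
    (ae_of_all _ fun x => Finset.prod_nonneg fun i _ => (Real.exp_pos _).le),
    integral_fintype_prod_eq_pow (fun x : ℝ => Real.exp (x ^ 2 / 4)), Fintype.card_fin]
  have h0 : 0 ≤ ∫ x, Real.exp (x ^ 2 / 4) ∂(gaussianReal 0 1) :=
    integral_nonneg fun x => (Real.exp_pos _).le
  rw [ENNReal.ofReal_pow h0]
  gcongr
  exact (ENNReal.ofReal_le_ofReal integral_exp_sq_le).trans (by simp)

lemma stdGaussian_tail (t : ℝ) :
    stdGaussian E {x | t ≤ ‖x‖ ^ 2} ≤ 2 ^ finrank ℝ E * ENNReal.ofReal (Real.exp (-t / 4)) := by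
  have hS : MeasurableSet {x : E | t ≤ ‖x‖ ^ 2} :=
    (isClosed_le continuous_const (by fun_prop)).measurableSet
  calc stdGaussian E {x | t ≤ ‖x‖ ^ 2} = ∫⁻ _ in {x : E | t ≤ ‖x‖ ^ 2}, 1 ∂(stdGaussian E) := by
        simp
    _ ≤ ∫⁻ x in {x : E | t ≤ ‖x‖ ^ 2}, ENNReal.ofReal (Real.exp (‖x‖ ^ 2 / 4)) *
          ENNReal.ofReal (Real.exp (-t / 4)) ∂(stdGaussian E) := by
        refine setLIntegral_mono' hS fun x hx => ?_
        rw [← ENNReal.ofReal_mul (Real.exp_pos _).le, ← Real.exp_add, ← ENNReal.ofReal_one]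
        refine ENNReal.ofReal_le_ofReal (Real.one_le_exp ?_)
        have : t ≤ ‖x‖ ^ 2 := hx
        linarith
    _ ≤ ∫⁻ x, ENNReal.ofReal (Real.exp (‖x‖ ^ 2 / 4)) *
          ENNReal.ofReal (Real.exp (-t / 4)) ∂(stdGaussian E) := setLIntegral_le_lintegral _ _
    _ ≤ _ := by
        rw [lintegral_mul_const _ (by fun_prop)]
        gcongr
        exact lintegral_exp_norm_sq

/-- the region of (samples, centred measurements) reachable from a ball of radius `r` -/
def region0 (k : ℕ) (r : ℝ) : Set ((Fin k → E) × (Fin k → ℝ)) :=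
  {p | ∑ j, p.2 j ^ 2 ≤ r * ‖∑ j, p.2 j • p.1 j‖}

lemma measurableSet_region0 (k : ℕ) (r : ℝ) : MeasurableSet (region0 (E := E) k r) :=
  (isClosed_le (by fun_prop) (by fun_prop)).measurableSet

lemma region0_slice (k : ℕ) {r : ℝ} (hr : 0 < r) (z : Fin k → ℝ) :
    (Measure.pi fun _ : Fin k => stdGaussian E) ((fun X => (X, z)) ⁻¹' region0 k r) ≤
      2 ^ finrank ℝ E * ENNReal.ofReal (∏ j, Real.exp (-(1 / (4 * r ^ 2)) * z j ^ 2)) := by
  set q : ℝ := ∑ j, z j ^ 2 with hq
  have hq0 : 0 ≤ q := Finset.sum_nonneg fun j _ => sq_nonneg _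
  have hprod : ∏ j, Real.exp (-(1 / (4 * r ^ 2)) * z j ^ 2) = Real.exp (-(q / r ^ 2) / 4) := by
    rw [← Real.exp_sum, ← Finset.mul_sum, ← hq]
    congr 1
    field_simp
  rw [hprod]
  rcases hq0.eq_or_lt with h | h
  · rw [← h]
    refine prob_le_one.trans ?_
    simp only [zero_div, neg_zero, Real.exp_zero, ENNReal.ofReal_one, mul_one]
    exact one_le_pow₀ (by norm_num)
  · set w : Fin k → ℝ := fun j => z j / √q with hw
    have hsq : 0 < √q := Real.sqrt_pos.2 h
    have hw1 : ∑ j, w j ^ 2 = 1 := by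
      simp only [hw, div_pow, Real.sq_sqrt hq0]
      rw [← Finset.sum_div, ← hq, div_self h.ne']
    refine le_trans ?_ (stdGaussian_tail (E := E) (q / r ^ 2))
    conv_rhs => rw [← stdGaussian_comb (E := E) w hw1]
    rw [Measure.map_apply (by fun_prop)
      (isClosed_le continuous_const (by fun_prop)).measurableSet]
    refine measure_mono fun X hX => ?_
    have h1 : q ≤ r * ‖∑ j, z j • X j‖ := hX
    have h2 : ∑ j, z j • X j = √q • ∑ j, w j • X j := by
      rw [Finset.smul_sum]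
      refine Finset.sum_congr rfl fun j _ => ?_
      rw [smul_smul, hw]
      congr 1
      field_simp
    rw [h2, norm_smul, Real.norm_eq_abs, abs_of_pos hsq] at h1
    show q / r ^ 2 ≤ ‖∑ j, w j • X j‖ ^ 2
    set n := ‖∑ j, w j • X j‖
    have hn : 0 ≤ n := norm_nonneg _
    have h3 : √q ≤ r * n := by
      have : √q * √q ≤ √q * (r * n) := by rw [Real.mul_self_sqrt hq0]; linarith
      exact le_of_mul_le_mul_left this hsq
    rw [div_le_iff₀ (by positivity)]
    calc q = √q ^ 2 := (Real.sq_sqrt hq0).symm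
      _ ≤ (r * n) ^ 2 := by gcongr
      _ = n ^ 2 * r ^ 2 := by ring

lemma measure_region0 (k : ℕ) {r : ℝ} (hr : 0 < r) :
    ((Measure.pi fun _ : Fin k => stdGaussian E).prod volume) (region0 k r) ≤
      2 ^ finrank ℝ E * 4 ^ k * ENNReal.ofReal r ^ k := by
  rw [Measure.prod_apply_symm (measurableSet_region0 k r)]
  refine (lintegral_mono fun z => region0_slice k hr z).trans ?_
  have hb : 0 < 1 / (4 * r ^ 2) := by positivity
  rw [lintegral_const_mul _ (by fun_prop), mul_assoc]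
  gcongr
  rw [volume_pi, ← ofReal_integral_eq_lintegral_ofReal
    (Integrable.fintype_prod (f := fun _ (x : ℝ) => Real.exp (-(1 / (4 * r ^ 2)) * x ^ 2))
      fun _ => integrable_exp_neg_mul_sq hb)
    (ae_of_all _ fun x => Finset.prod_nonneg fun i _ => (Real.exp_pos _).le),
    integral_fintype_prod_eq_pow (fun x : ℝ => Real.exp (-(1 / (4 * r ^ 2)) * x ^ 2)),
    Fintype.card_fin, integral_gaussian, ENNReal.ofReal_pow (Real.sqrt_nonneg _), ← mul_pow]
  gcongr
  rw [← ENNReal.ofReal_ofNat, ← ENNReal.ofReal_mul (by norm_num)]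
  refine ENNReal.ofReal_le_ofReal ?_
  rw [Real.sqrt_le_left (by positivity), div_le_iff₀ hb]
  have : (4 * r) ^ 2 * (1 / (4 * r ^ 2)) = 4 := by field_simp
  rw [this]
  exact Real.pi_le_four

/-- the region reachable from the ball `closedBall a r` -/
def region (k : ℕ) (a : E) (r : ℝ) : Set ((Fin k → E) × (Fin k → ℝ)) :=
  (fun p => (p.1, p.2 - fun j => ⟪p.1 j, a⟫)) ⁻¹' region0 k r

lemma measurableSet_region (k : ℕ) (a : E) (r : ℝ) : MeasurableSet (region (E := E) k a r) :=
  (measurableSet_region0 k r).preimage (by fun_prop)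

lemma measure_region (k : ℕ) (a : E) {r : ℝ} (hr : 0 < r) :
    ((Measure.pi fun _ : Fin k => stdGaussian E).prod volume) (region k a r) ≤
      2 ^ finrank ℝ E * 4 ^ k * ENNReal.ofReal r ^ k := by
  refine le_trans (le_of_eq ?_) (measure_region0 k hr)
  rw [Measure.prod_apply (measurableSet_region k a r),
    Measure.prod_apply (measurableSet_region0 k r)]
  refine lintegral_congr fun X => ?_
  have := measure_preimage_add_right (volume : Measure (Fin k → ℝ)) (-fun j => ⟪X j, a⟫)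
    (Prod.mk X ⁻¹' region0 k r)
  rw [← this]
  rfl

omit [FiniteDimensional ℝ E] [MeasurableSpace E] [BorelSpace E] in
lemma mem_region {k : ℕ} {a : E} {r : ℝ} (X : Fin k → E) {s : E} (hs : s ∈ closedBall a r) :
    (X, fun j => ⟪X j, s⟫) ∈ region k a r := by
  show ∑ j, (⟪X j, s⟫ - ⟪X j, a⟫) ^ 2 ≤ r * ‖∑ j, (⟪X j, s⟫ - ⟪X j, a⟫) • X j‖
  have h : ∑ j, (⟪X j, s⟫ - ⟪X j, a⟫) ^ 2 = ⟪∑ j, (⟪X j, s⟫ - ⟪X j, a⟫) • X j, s - a⟫ := by
    rw [sum_inner]
    refine Finset.sum_congr rfl fun j _ => ?_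
    rw [real_inner_smul_left, inner_sub_right]; ring
  rw [h, mul_comm]
  refine (real_inner_le_norm _ _).trans ?_
  rw [mem_closedBall, dist_eq_norm] at hs
  gcongr

end Crest.Agent.R322
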