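import Crest.Agent.R322.Frost
import Crest.Agent.R322.Gauss

/-!
Row 322 (S0499).  The block lemma: one block of `k` Gaussian measurements followed by a choice
among `K` states multiplies the Frostman constant by at most `K^{1/n} C^d`.
-/

set_option autoImplicit false

namespace Crest.Agent.R322

open MeasureTheory Metric Set Module ProbabilityTheory
open scoped ENNReal RealInnerProductSpace

variable {E : Type*} [NormedAddCommGroup E] [InnerProductSpace ℝ E] [FiniteDimensional ℝ E]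
  [MeasurableSpace E] [BorelSpace E]

variable (E) in
/-- law of a block of `k` samples -/
noncomputable abbrev Gam (k : ℕ) : Measure (Fin k → E) := Measure.pi fun _ => stdGaussian E

/-- the measurements -/
noncomputable def ms {k : ℕ} (X : Fin k → E) (s : E) : Fin k → ℝ := fun j => ⟪X j, s⟫

def slabs (U : Finset E) (η : ℝ) : Set E := {x | ∀ u ∈ U, |⟪x, u⟫| ≤ η}

omit [FiniteDimensional ℝ E] [MeasurableSpace E] [BorelSpace E] in
lemma isClosed_slabs (U : Finset E) (η : ℝ) : IsClosed (slabs U η) := by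
  have : slabs U η = ⋂ u ∈ U, {x : E | |⟪x, u⟫| ≤ η} := by
    ext x; simp [slabs]
  rw [this]
  exact isClosed_biInter fun u _ => isClosed_le (by fun_prop) continuous_const

open Classical in
lemma slabs_insert (U : Finset E) (u : E) {η : ℝ} (hη : 0 < η) :
    stdGaussian E (slabs (insert u U) η) ≤ stdGaussian E (slabs U η) *
      (ENNReal.ofReal η * (ENNReal.ofReal (dV (Submodule.span ℝ (U : Set E)) u))⁻¹) := by
  set V := Submodule.span ℝ (U : Set E) with hV
  have hsub : slabs (insert u U) η = slabs U η ∩ {x | |⟪x, u⟫| ≤ η} := by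
    ext x
    simp only [slabs, Finset.mem_insert, forall_eq_or_imp, mem_ofPred_eq, mem_inter_iff]
    tauto
  rw [hsub]
  rcases (dV_nonneg V u).eq_or_lt with h | h
  · rw [← h, ENNReal.ofReal_zero, ENNReal.inv_zero, ENNReal.mul_top (by simpa using hη)]
    exact (measure_mono inter_subset_left).trans (le_mul_of_one_le_right' le_top)
  · set w := u - V.starProjection u with hw
    have hwn : ‖w‖ = dV V u := rfl
    have hworth : w ∈ Vᗮ := Submodule.sub_starProjection_mem_orthogonal u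
    have key := slab (slabs U η) (isClosed_slabs U η).measurableSet ((dV V u)⁻¹ • w)
      (by rw [norm_smul, hwn, norm_inv, Real.norm_eq_abs, abs_of_pos h, inv_mul_cancel₀ h.ne'])
      (fun x t hx v hv => by
        have h1 := hx v hv
        have h2 : ⟪w, v⟫ = 0 :=
          Submodule.inner_left_of_mem_orthogonal (Submodule.subset_span hv) hworth
        rwa [inner_add_left, real_inner_smul_left, real_inner_smul_left, h2, mul_zero, mul_zero,
          add_zero] at h1)
      u (η := η) h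
      (by
        have h2 : ⟪w, V.starProjection u⟫ = 0 :=
          Submodule.inner_left_of_mem_orthogonal (Submodule.starProjection_apply_mem V u) hworth
        have h3 : ⟪w, u⟫ = ⟪w, w⟫ := by
          conv_rhs => rw [hw, inner_sub_right, ← hw, h2, sub_zero]
        rw [real_inner_smul_left, h3, real_inner_self_eq_norm_sq, hwn]
        field_simp)
    rwa [div_eq_mul_inv, ENNReal.ofReal_mul hη.le, ENNReal.ofReal_inv_of_pos h] at key

/-- mass of the points whose measurements are `η`-close to those of `s0` -/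
noncomputable def cnt {k : ℕ} (μ : Measure E) (η : ℝ) (X : Fin k → E) (s0 : E) : ℝ≥0∞ :=
  μ {s | ∀ j, |⟪X j, s - s0⟫| ≤ η}

lemma measurable_cnt {k : ℕ} (μ : Measure E) [SFinite μ] (η : ℝ) :
    Measurable fun p : (Fin k → E) × E => cnt μ η p.1 p.2 := by
  have hW : MeasurableSet {q : ((Fin k → E) × E) × E | ∀ j, |⟪q.1.1 j, q.2 - q.1.2⟫| ≤ η} := by
    rw [ofPred_forall]
    exact MeasurableSet.iInter fun j =>
      (isClosed_le (by fun_prop) continuous_const).measurableSet
  exact measurable_measure_prodMk_left hW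

open Classical in
lemma moment_aux {k α : ℕ} (μ : Measure E) [SFinite μ] (s0 : E) (Λ : ℝ≥0∞) {η : ℝ} (hη : 0 < η)
    (H : ∀ V : Submodule ℝ E, finrank ℝ V + k + 1 ≤ α →
      ∫⁻ s, (ENNReal.ofReal (dV V (s - s0)))⁻¹ ^ k ∂μ ≤ Λ) (n : ℕ) :
    ∀ U : Finset E, U.card + n + k ≤ α →
      ∫⁻ X in (univ.pi fun _ : Fin k => slabs U η), cnt μ η X s0 ^ n ∂(Gam E k) ≤
        stdGaussian E (slabs U η) ^ k * (ENNReal.ofReal η ^ k * Λ) ^ n := by
  have hm : Measurable fun X : Fin k → E => cnt μ η X s0 :=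
    (measurable_cnt μ η).comp (measurable_id.prodMk measurable_const)
  have hP : ∀ U : Finset E, MeasurableSet (univ.pi fun _ : Fin k => slabs U η) := fun U =>
    MeasurableSet.univ_pi fun _ => (isClosed_slabs U η).measurableSet
  induction n with
  | zero =>
    intro U _
    simp [Measure.pi_pi]
  | succ n ih =>
    intro U hU
    let W : Set ((Fin k → E) × E) :=
      {p | p.1 ∈ (univ.pi fun _ : Fin k => slabs U η) ∧ ∀ j, |⟪p.1 j, p.2 - s0⟫| ≤ η}
    have hW : MeasurableSet W := by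
      refine ((hP U).preimage measurable_fst).inter ?_
      change MeasurableSet {p : (Fin k → E) × E | ∀ j, |⟪p.1 j, p.2 - s0⟫| ≤ η}
      rw [ofPred_forall]
      exact MeasurableSet.iInter fun j =>
        (isClosed_le (by fun_prop) continuous_const).measurableSet
    let f : (Fin k → E) → E → ℝ≥0∞ := fun X s => W.indicator (fun p => cnt μ η p.1 s0 ^ n) (X, s)
    have hf : Measurable (Function.uncurry f) :=
      ((hm.comp measurable_fst).pow_const n).indicator hW
    have h1 : ∫⁻ X in (univ.pi fun _ : Fin k => slabs U η), cnt μ η X s0 ^ (n + 1) ∂(Gam E k) =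
        ∫⁻ X, ∫⁻ s, f X s ∂μ ∂(Gam E k) := by
      rw [← lintegral_indicator (hP U)]
      refine lintegral_congr fun X => ?_
      have e : (fun s => f X s) = (Prod.mk X ⁻¹' W).indicator fun _ => cnt μ η X s0 ^ n := by
        ext s
        simp only [f, indicator, mem_preimage]
      rw [e, lintegral_indicator_const (hW.preimage measurable_prodMk_left)]
      by_cases hX : X ∈ (univ.pi fun _ : Fin k => slabs U η)
      · have : Prod.mk X ⁻¹' W = {s | ∀ j, |⟪X j, s - s0⟫| ≤ η} := by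
          ext s
          simp only [W, mem_preimage, mem_ofPred_eq, hX, true_and]
        rw [indicator_of_mem hX, pow_succ, this]
        rfl
      · rw [indicator_of_notMem hX]
        have : Prod.mk X ⁻¹' W = ∅ := by
          ext s
          simp only [W, mem_preimage, mem_ofPred_eq, hX, false_and, mem_empty_iff_false]
        rw [this]; simp
    rw [h1, lintegral_lintegral_swap hf.aemeasurable]
    set V := Submodule.span ℝ (U : Set E) with hV
    have hVr : finrank ℝ V + k + 1 ≤ α := by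
      have : finrank ℝ V ≤ U.card := finrank_span_finset_le_card U
      omega
    calc ∫⁻ s, ∫⁻ X, f X s ∂(Gam E k) ∂μ
        ≤ ∫⁻ s, (stdGaussian E (slabs U η) ^ k * ENNReal.ofReal η ^ k *
            (ENNReal.ofReal η ^ k * Λ) ^ n) * (ENNReal.ofReal (dV V (s - s0)))⁻¹ ^ k ∂μ := by
          refine lintegral_mono fun s => ?_
          have e : (fun X => f X s) = (univ.pi fun _ : Fin k => slabs (insert (s - s0) U) η).indicator
              fun X => cnt μ η X s0 ^ n := by
            ext X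
            simp only [f, indicator, W, mem_ofPred_eq, mem_pi, mem_univ, true_imp_iff, slabs,
              Finset.mem_insert, forall_eq_or_imp]
            congr 1
            apply propext
            constructor
            · rintro ⟨h1, h2⟩ i
              exact ⟨h2 i, h1 i⟩
            · intro h
              exact ⟨fun i => (h i).2, fun i => (h i).1⟩
          rw [e, lintegral_indicator (hP _)]
          refine (ih _ (by have := Finset.card_insert_le (s - s0) U; omega)).trans ?_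
          calc _ ≤ (stdGaussian E (slabs U η) * (ENNReal.ofReal η *
                (ENNReal.ofReal (dV V (s - s0)))⁻¹)) ^ k * (ENNReal.ofReal η ^ k * Λ) ^ n := by
                gcongr
                exact slabs_insert U _ hη
            _ = _ := by simp only [mul_pow]; ring
      _ ≤ (stdGaussian E (slabs U η) ^ k * ENNReal.ofReal η ^ k *
            (ENNReal.ofReal η ^ k * Λ) ^ n) * Λ := by
          rw [lintegral_const_mul]
          · gcongr
            exact H V hVr
          · have := (continuous_dV V).measurable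
            fun_prop
      _ = _ := by ring

lemma moment {k α n : ℕ} (μ : Measure E) [SFinite μ] (s0 : E) (Λ : ℝ≥0∞) {η : ℝ} (hη : 0 < η)
    (H : ∀ V : Submodule ℝ E, finrank ℝ V + k + 1 ≤ α →
      ∫⁻ s, (ENNReal.ofReal (dV V (s - s0)))⁻¹ ^ k ∂μ ≤ Λ) (hn : n + k ≤ α) :
    ∫⁻ X : Fin k → E, cnt μ η X s0 ^ n ∂(Gam E k) ≤ (ENNReal.ofReal η ^ k * Λ) ^ n := by
  have := moment_aux μ s0 Λ hη H n ∅ (by simpa using hn)
  simpa [slabs] using this

/-- the pair (samples, measurements) -/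
noncomputable def obs {k : ℕ} (p : (Fin k → E) × E) : (Fin k → E) × (Fin k → ℝ) :=
  (p.1, ms p.1 p.2)

omit [FiniteDimensional ℝ E] [MeasurableSpace E] [BorelSpace E] in
lemma continuous_obs {k : ℕ} : Continuous (obs (E := E) (k := k)) := by
  unfold obs ms
  fun_prop

lemma heavy {k n : ℕ} (μ : Measure E) [SFinite μ] {Λ κ : ℝ≥0∞} (hΛ0 : Λ ≠ 0) (hΛt : Λ ≠ ∞)
    (hκ0 : κ ≠ 0) (hκt : κ ≠ ∞) {η : ℝ} (hη : 0 < η)
    (H : ∀ᵐ s0 ∂μ, ∫⁻ X : Fin k → E, cnt μ η X s0 ^ n ∂(Gam E k) ≤
      (ENNReal.ofReal η ^ k * Λ) ^ n) :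
    ((Gam E k).prod μ) {p | κ * Λ * ENNReal.ofReal η ^ k ≤ cnt μ η p.1 p.2} ≤
      κ⁻¹ ^ n * μ univ := by
  rw [Measure.prod_apply_symm (measurableSet_le measurable_const (measurable_cnt μ η)),
    ← lintegral_const]
  refine lintegral_mono_ae (H.mono fun s0 h => ?_)
  have hm : Measurable fun X : Fin k → E => cnt μ η X s0 ^ n :=
    ((measurable_cnt μ η).comp (measurable_id.prodMk measurable_const)).pow_const n
  have h1 := (mul_meas_ge_le_lintegral (μ := Gam E k) hm
    ((κ * Λ * ENNReal.ofReal η ^ k) ^ n)).trans h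
  have hη0 : ENNReal.ofReal η ^ k ≠ 0 := pow_ne_zero _ (by simpa using hη)
  have hηt : ENNReal.ofReal η ^ k ≠ ∞ := ENNReal.pow_ne_top ENNReal.ofReal_ne_top
  have e : (ENNReal.ofReal η ^ k * Λ) ^ n = (κ * Λ * ENNReal.ofReal η ^ k) ^ n * κ⁻¹ ^ n := by
    rw [← mul_pow]
    congr 1
    calc ENNReal.ofReal η ^ k * Λ = (κ * κ⁻¹) * (ENNReal.ofReal η ^ k * Λ) := by
          rw [ENNReal.mul_inv_cancel hκ0 hκt, one_mul]
      _ = _ := by ring
  rw [e, ENNReal.mul_le_mul_iff_right (pow_ne_zero _ (mul_ne_zero (mul_ne_zero hκ0 hΛ0) hη0))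
    (ENNReal.pow_ne_top (ENNReal.mul_ne_top (ENNReal.mul_ne_top hκt hΛt) hηt))] at h1
  refine le_trans (measure_mono fun X hX => ?_) h1
  have hX' : κ * Λ * ENNReal.ofReal η ^ k ≤ cnt μ η X s0 := hX
  show (κ * Λ * ENNReal.ofReal η ^ k) ^ n ≤ cnt μ η X s0 ^ n
  gcongr

lemma light {k : ℕ} (μ : Measure E) [SFinite μ] (τ : ℝ≥0∞) {η : ℝ} (hη : 0 < η)
    (A : Set ((Fin k → E) × (Fin k → ℝ))) (hA : MeasurableSet A) :
    ((Gam E k).prod μ) {p | closedBall (obs p) (η / 2) ⊆ A ∧
      cnt μ η p.1 p.2 ≤ τ * ENNReal.ofReal η ^ k} ≤ τ * ((Gam E k).prod volume) A := by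
  have hη0 : ENNReal.ofReal η ^ k ≠ 0 := pow_ne_zero _ (by simpa using hη)
  have hηt : ENNReal.ofReal η ^ k ≠ ∞ := ENNReal.pow_ne_top ENNReal.ofReal_ne_top
  let W : Set (((Fin k → E) × E) × (Fin k → ℝ)) :=
    {q | (q.1.1, q.2) ∈ A ∧ dist q.2 (ms q.1.1 q.1.2) ≤ η / 2 ∧
      cnt μ η q.1.1 q.1.2 ≤ τ * ENNReal.ofReal η ^ k}
  have hW : MeasurableSet W := by
    refine (hA.preimage (by fun_prop)).inter (MeasurableSet.inter ?_ ?_)
    · have : IsClosed {q : ((Fin k → E) × E) × (Fin k → ℝ) | dist q.2 (ms q.1.1 q.1.2) ≤ η / 2} :=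
        isClosed_le (by unfold ms; fun_prop) continuous_const
      exact this.measurableSet
    · exact measurableSet_le ((measurable_cnt μ η).comp measurable_fst) measurable_const
  have hf : Measurable fun p : (Fin k → E) × E => (volume : Measure (Fin k → ℝ)) (Prod.mk p ⁻¹' W) :=
    measurable_measure_prodMk_left hW
  have h1 := mul_meas_ge_le_lintegral (μ := (Gam E k).prod μ) hf (ENNReal.ofReal η ^ k)
  have h2 : ∫⁻ p, (volume : Measure (Fin k → ℝ)) (Prod.mk p ⁻¹' W) ∂((Gam E k).prod μ) ≤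
      ENNReal.ofReal η ^ k * (τ * ((Gam E k).prod volume) A) := by
    rw [lintegral_prod _ hf.aemeasurable, Measure.prod_apply hA, ← mul_assoc,
      ← lintegral_const_mul _ (measurable_measure_prodMk_left hA)]
    refine lintegral_mono fun X => ?_
    let WX : Set (E × (Fin k → ℝ)) := (fun q => ((X, q.1), q.2)) ⁻¹' W
    have hWX : MeasurableSet WX := hW.preimage (by fun_prop)
    have e1 : ∫⁻ s, (volume : Measure (Fin k → ℝ)) (Prod.mk (X, s) ⁻¹' W) ∂μ =
        (μ.prod volume) WX := by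
      rw [Measure.prod_apply hWX]; rfl
    rw [e1, Measure.prod_apply_symm hWX, ← setLIntegral_const,
      ← lintegral_indicator (hA.preimage measurable_prodMk_left)]
    refine lintegral_mono fun y => ?_
    rcases eq_empty_or_nonempty ((fun s => (s, y)) ⁻¹' WX) with h | ⟨s0, hs0⟩
    · rw [h]; simp
    · obtain ⟨ha, hb, hc⟩ := hs0
      rw [indicator_of_mem (show y ∈ Prod.mk X ⁻¹' A from ha), mul_comm]
      refine le_trans (measure_mono (t := {s | ∀ j, |⟪X j, s - s0⟫| ≤ η}) fun s hs j => ?_) hc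
      obtain ⟨-, hb', -⟩ := hs
      have d1 := (dist_le_pi_dist y (ms X s0) j).trans hb
      have d2 := (dist_le_pi_dist y (ms X s) j).trans hb'
      rw [Real.dist_eq, abs_le] at d1 d2
      simp only [ms] at d1 d2
      rw [inner_sub_right, abs_le]
      constructor <;> linarith [d1.1, d1.2, d2.1, d2.2]
  rw [← ENNReal.mul_le_mul_iff_right hη0 hηt]
  refine le_trans ?_ (h1.trans h2)
  refine mul_le_mul_right (measure_mono ?_) _
  rintro p ⟨hp1, hp2⟩
  show ENNReal.ofReal η ^ k ≤ (volume : Measure (Fin k → ℝ)) (Prod.mk p ⁻¹' W)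
  have hvol : (volume : Measure (Fin k → ℝ)) (closedBall (ms p.1 p.2) (η / 2)) =
      ENNReal.ofReal η ^ k := by
    rw [Real.volume_pi_closedBall _ (by positivity), Fintype.card_fin, ENNReal.ofReal_pow
      (by positivity)]
    congr 2
    ring
  rw [← hvol]
  refine measure_mono fun y hy => ⟨hp1 ?_, hy, hp2⟩
  rw [mem_closedBall, obs, Prod.dist_eq, dist_self, max_le_iff]
  exact ⟨by positivity, hy⟩

/-- domination of the law of the observation by the reference measure -/
lemma dominate {k n : ℕ} (μ : Measure E) [SFinite μ] {Λ κ : ℝ≥0∞} (hΛ0 : Λ ≠ 0) (hΛt : Λ ≠ ∞)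
    (hκ0 : κ ≠ 0) (hκt : κ ≠ ∞)
    (H : ∀ η : ℝ, 0 < η → ∀ᵐ s0 ∂μ, ∫⁻ X : Fin k → E, cnt μ η X s0 ^ n ∂(Gam E k) ≤
      (ENNReal.ofReal η ^ k * Λ) ^ n) (A : Set ((Fin k → E) × (Fin k → ℝ))) :
    ((Gam E k).prod μ) (obs ⁻¹' A) ≤
      κ * Λ * ((Gam E k).prod volume) A + κ⁻¹ ^ n * μ univ := by
  have hopen : ∀ O : Set ((Fin k → E) × (Fin k → ℝ)), IsOpen O →
      ((Gam E k).prod μ) (obs ⁻¹' O) ≤
        κ * Λ * ((Gam E k).prod volume) O + κ⁻¹ ^ n * μ univ := by
    intro O hO
    let S : ℕ → Set ((Fin k → E) × E) := fun m =>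
      {p | closedBall (obs p) ((1 / ((m : ℝ) + 1)) / 2) ⊆ O}
    have hmono : Monotone S := by
      intro m m' hmm p hp
      refine subset_trans (closedBall_subset_closedBall ?_) hp
      have := Nat.one_div_le_one_div (α := ℝ) hmm
      linarith
    have hU : obs ⁻¹' O ⊆ ⋃ m, S m := by
      intro p hp
      obtain ⟨ε, hε, hb⟩ := Metric.isOpen_iff.1 hO _ hp
      obtain ⟨m, hm⟩ := exists_nat_one_div_lt hε
      refine mem_iUnion.2 ⟨m, subset_trans (closedBall_subset_ball ?_) hb⟩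
      have : (0 : ℝ) < 1 / ((m : ℝ) + 1) := Nat.one_div_pos_of_nat
      linarith
    refine (measure_mono hU).trans ?_
    rw [hmono.measure_iUnion]
    refine iSup_le fun m => ?_
    have hη : (0 : ℝ) < 1 / ((m : ℝ) + 1) := Nat.one_div_pos_of_nat
    refine le_trans ?_ (add_le_add (light μ (κ * Λ) hη O hO.measurableSet)
      (heavy μ hΛ0 hΛt hκ0 hκt hη (H _ hη)))
    refine le_trans (measure_mono fun p hp => ?_) (measure_union_le _ _)
    rcases le_total (cnt μ (1 / ((m : ℝ) + 1)) p.1 p.2)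
      (κ * Λ * ENNReal.ofReal (1 / ((m : ℝ) + 1)) ^ k) with h | h
    · exact Or.inl ⟨hp, h⟩
    · exact Or.inr h
  rw [A.measure_eq_iInf_isOpen ((Gam E k).prod volume)]
  have hτ0 : κ * Λ ≠ 0 := mul_ne_zero hκ0 hΛ0
  have hτt : κ * Λ ≠ ∞ := ENNReal.mul_ne_top hκt hΛt
  simp_rw [ENNReal.mul_iInf_of_ne hτ0 hτt, ENNReal.iInf_add]
  refine le_iInf fun O => le_iInf fun hAO => le_iInf fun hO => ?_
  exact (measure_mono (preimage_mono hAO)).trans (hopen O hO)

/-- the growth factor of a block -/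
noncomputable def gro (κ : ℝ≥0∞) (α d k : ℕ) : ℝ≥0∞ := κ * (2 * 8 ^ α) * (2 ^ d * 4 ^ k) + 1

theorem block {ι : Type*} (F : Finset ι) (μ : ι → Measure E) [∀ v, SFinite (μ v)] {N : ℝ≥0∞}
    (hN0 : N ≠ 0) (hNt : N ≠ ∞) {α n k : ℕ} (hα : n + k ≤ α) (hμ : ∀ v, Frost (μ v) N α)
    (A : ι → Set ((Fin k → E) × (Fin k → ℝ))) (hA : ∀ v, MeasurableSet (A v))
    (hd : Pairwise (Function.onFun Disjoint A)) {κ : ℝ≥0∞} (hκ0 : κ ≠ 0) (hκt : κ ≠ ∞)
    (hκ : (F.card : ℝ≥0∞) ≤ κ ^ n) (a : E) {r : ℝ} (hr : 0 < r) :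
    ∑ v ∈ F, ((Gam E k).prod ((μ v).restrict (closedBall a r))) (obs ⁻¹' A v) ≤
      gro κ α (finrank ℝ E) k * N * ENNReal.ofReal r ^ α := by
  set Λ : ℝ≥0∞ := 2 * 8 ^ α * N * ENNReal.ofReal r ^ (α - k) with hΛ
  have hr0 : ENNReal.ofReal r ≠ 0 := by simpa using hr
  have hΛ0 : Λ ≠ 0 := mul_ne_zero (mul_ne_zero (by simp) hN0) (pow_ne_zero _ hr0)
  have hΛt : Λ ≠ ∞ := ENNReal.mul_ne_top (ENNReal.mul_ne_top (by finiteness) hNt)
    (ENNReal.pow_ne_top ENNReal.ofReal_ne_top)
  set ρ : Measure ((Fin k → E) × (Fin k → ℝ)) := (Gam E k).prod volume with hρ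
  have h1 : ∀ v, ((Gam E k).prod ((μ v).restrict (closedBall a r))) (obs ⁻¹' A v) ≤
      κ * Λ * ρ (A v ∩ region k a r) + κ⁻¹ ^ n * (N * ENNReal.ofReal r ^ α) := by
    intro v
    have h2 := dominate (n := n) ((μ v).restrict (closedBall a r)) hΛ0 hΛt hκ0 hκt
      (fun η hη => (ae_restrict_mem measurableSet_closedBall).mono fun s0 hs0 =>
        moment _ s0 Λ hη (fun V hV => energy (hμ v) V hV hr hs0) hα) (A v ∩ region k a r)
    rw [Measure.restrict_apply_univ] at h2
    refine le_trans (measure_mono_ae ?_) (h2.trans (by gcongr; exact hμ v a r hr))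
    have h3 : ∀ᵐ p ∂((Gam E k).prod ((μ v).restrict (closedBall a r))), p.2 ∈ closedBall a r :=
      Measure.quasiMeasurePreserving_snd.ae (ae_restrict_mem measurableSet_closedBall)
    exact h3.mono fun p hp hpA => ⟨hpA, mem_region p.1 hp⟩
  refine (Finset.sum_le_sum fun v _ => h1 v).trans ?_
  rw [Finset.sum_add_distrib, ← Finset.mul_sum, Finset.sum_const, nsmul_eq_mul]
  have h4 : ∑ v ∈ F, ρ (A v ∩ region k a r) ≤
      2 ^ finrank ℝ E * 4 ^ k * ENNReal.ofReal r ^ k := by
    rw [← measure_biUnion_finset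
      (fun v _ w _ hvw => (hd hvw).mono inter_subset_left inter_subset_left)
      (fun v _ => (hA v).inter (measurableSet_region k a r))]
    exact (measure_mono (iUnion₂_subset fun v _ => inter_subset_right)).trans
      (measure_region k a hr)
  have h5 : (F.card : ℝ≥0∞) * κ⁻¹ ^ n ≤ 1 := by
    calc (F.card : ℝ≥0∞) * κ⁻¹ ^ n ≤ κ ^ n * κ⁻¹ ^ n := by gcongr
      _ = 1 := by rw [← mul_pow, ENNReal.mul_inv_cancel hκ0 hκt, one_pow]
  have h6 : ENNReal.ofReal r ^ (α - k) * ENNReal.ofReal r ^ k = ENNReal.ofReal r ^ α := by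
    rw [← pow_add]; congr 1; omega
  calc κ * Λ * ∑ v ∈ F, ρ (A v ∩ region k a r) + F.card * (κ⁻¹ ^ n * (N * ENNReal.ofReal r ^ α))
      ≤ κ * Λ * (2 ^ finrank ℝ E * 4 ^ k * ENNReal.ofReal r ^ k) +
          1 * (N * ENNReal.ofReal r ^ α) := by
        rw [← mul_assoc (F.card : ℝ≥0∞)]
        gcongr
    _ = _ := by
        rw [gro, hΛ, ← h6]; ring

theorem block_fun (σ : Measure E) [SFinite σ] {S : Type*} (F : Finset S) (H : S → E → ℝ≥0∞)
    (hH : ∀ v, Measurable (H v)) {N : ℝ≥0∞} (hN0 : N ≠ 0) (hNt : N ≠ ∞) {α n k : ℕ}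
    (hα : n + k ≤ α) (hF : ∀ v, Frost (σ.withDensity (H v)) N α)
    (sel : (Fin k → E) × (Fin k → ℝ) → S) (hsel : ∀ v, MeasurableSet (sel ⁻¹' {v}))
    (hmem : ∀ p, sel p ∈ F) {κ : ℝ≥0∞} (hκ0 : κ ≠ 0) (hκt : κ ≠ ∞)
    (hκ : (F.card : ℝ≥0∞) ≤ κ ^ n) :
    Frost (σ.withDensity fun s => ∫⁻ X, H (sel (X, ms X s)) s ∂(Gam E k))
      (gro κ α (finrank ℝ E) k * N) α := by
  intro a r hr
  refine le_trans (le_of_eq ?_) (block F (fun v => σ.withDensity (H v)) hN0 hNt hα hF
    (fun v => sel ⁻¹' {v}) hsel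
    (fun v w hvw => Disjoint.preimage _ (disjoint_singleton.2 hvw)) hκ0 hκt hκ a hr)
  have hO : ∀ v, MeasurableSet (obs ⁻¹' (sel ⁻¹' {v}) : Set ((Fin k → E) × E)) := fun v =>
    (hsel v).preimage continuous_obs.measurable
  have hg : ∀ v, Measurable fun s : E =>
      Gam E k ((fun X => (X, s)) ⁻¹' (obs ⁻¹' (sel ⁻¹' {v}))) := fun v =>
    measurable_measure_prodMk_right (hO v)
  rw [withDensity_apply _ measurableSet_closedBall]
  have e : ∀ s, ∫⁻ X, H (sel (X, ms X s)) s ∂(Gam E k) =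
      ∑ v ∈ F, H v s * Gam E k ((fun X => (X, s)) ⁻¹' (obs ⁻¹' (sel ⁻¹' {v}))) := by
    intro s
    have hm : ∀ v, MeasurableSet ((fun X => (X, s)) ⁻¹' (obs ⁻¹' (sel ⁻¹' {v}))) := fun v =>
      (hO v).preimage measurable_prodMk_right
    simp_rw [← lintegral_indicator_const (hm _)]
    rw [← lintegral_finsetSum _ fun v _ => measurable_const.indicator (hm v)]
    refine lintegral_congr fun X => ?_
    rw [Finset.sum_eq_single_of_mem (sel (X, ms X s)) (hmem _)]
    · rw [indicator_of_mem]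
      rfl
    · intro v _ hv
      rw [indicator_of_notMem]
      exact fun h => hv (Eq.symm h)
  simp_rw [e]
  rw [lintegral_finsetSum (f := fun v s => H v s *
    Gam E k ((fun X => (X, s)) ⁻¹' (obs ⁻¹' (sel ⁻¹' {v})))) _ fun v _ => (hH v).mul (hg v)]
  refine Finset.sum_congr rfl fun v _ => ?_
  rw [Measure.prod_apply_symm (hO v), restrict_withDensity measurableSet_closedBall,
    lintegral_withDensity_eq_lintegral_mul _ (hH v) (hg v)]
  rfl

end Crest.Agent.R322
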