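import Crest.Agent.R322.Block

/-!
Row 322 (S0499).  Generic one-pass processes and the backward induction on Frostman constants.
-/

set_option autoImplicit false

namespace Crest.Agent.R322

open MeasureTheory Metric Set Module ProbabilityTheory
open scoped ENNReal RealInnerProductSpace

/-- run `j` steps from time `t` -/
def runF {S E : Type*} (step : ℕ → S → E → ℝ → S) :
    (j : ℕ) → ℕ → S → (Fin j → E) → (Fin j → ℝ) → S
  | 0, _, st, _, _ => st
  | j + 1, t, st, X, y => runF step j (t + 1) (step t st (X 0) (y 0)) (Fin.tail X) (Fin.tail y)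

lemma runF_eq_foldl {S E : Type*} (step : ℕ → S → E → ℝ → S) (j : ℕ) :
    ∀ (t : ℕ) (st : S) (X : Fin j → E) (y : Fin j → ℝ), runF step j t st X y =
      (List.finRange j).foldl (fun st (i : Fin j) => step (t + i.val) st (X i) (y i)) st := by
  induction j with
  | zero => intro t st X y; rfl
  | succ j ih =>
    intro t st X y
    rw [runF, ih, List.finRange_succ, List.foldl_cons, List.foldl_map]
    simp only [Fin.val_zero, add_zero, Fin.val_succ, Fin.tail]
    congr 1
    funext st i
    congr 1
    omega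

lemma measurable_runF {S E Z : Type*} [Countable S] [MeasurableSpace S]
    [DiscreteMeasurableSpace S] [MeasurableSpace E] [MeasurableSpace Z] {Ω : Type*}
    [MeasurableSpace Ω] (step : Ω → ℕ → S → E → ℝ → S)
    (hstep : ∀ t st, Measurable fun p : Ω × (E × ℝ) => step p.1 t st p.2.1 p.2.2)
    (ω : Z → Ω) (hω : Measurable ω) (j : ℕ) :
    ∀ (t : ℕ) (st : Z → S) (X : Z → Fin j → E) (y : Z → Fin j → ℝ), Measurable st →
      Measurable X → Measurable y →
      Measurable fun z => runF (step (ω z)) j t (st z) (X z) (y z) := by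
  induction j with
  | zero => intro t st X y hst _ _; exact hst
  | succ j ih =>
    intro t st X y hst hX hy
    simp only [runF]
    refine ih (t + 1) _ _ _ ?_ ?_ ?_
    · have h1 : Measurable fun q : (Ω × (E × ℝ)) × S => step q.1.1 t q.2 q.1.2.1 q.1.2.2 :=
        measurable_from_prod_countable_left fun st => hstep t st
      exact h1.comp ((hω.prodMk (((measurable_pi_apply 0).comp hX).prodMk
        ((measurable_pi_apply 0).comp hy))).prodMk hst)
    · exact measurable_pi_lambda _ fun i => (measurable_pi_apply i.succ).comp hX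
    · exact measurable_pi_lambda _ fun i => (measurable_pi_apply i.succ).comp hy

variable {E : Type*} [NormedAddCommGroup E] [InnerProductSpace ℝ E] [FiniteDimensional ℝ E]
  [MeasurableSpace E] [BorelSpace E]
  {S : Type*} [Countable S] [MeasurableSpace S] [DiscreteMeasurableSpace S]

omit [NormedAddCommGroup E] [InnerProductSpace ℝ E] [FiniteDimensional ℝ E] [BorelSpace E] in
lemma measurable_runF' {Z : Type*} [MeasurableSpace Z] (step : ℕ → S → E → ℝ → S)
    (hstep : ∀ t st, Measurable fun p : E × ℝ => step t st p.1 p.2) (j t : ℕ) (st : S)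
    (X : Z → Fin j → E) (y : Z → Fin j → ℝ) (hX : Measurable X) (hy : Measurable y) :
    Measurable fun z => runF step j t st (X z) (y z) :=
  measurable_runF (Ω := Unit) (fun _ => step) (fun t st => (hstep t st).comp measurable_snd)
    (fun _ => ()) measurable_const j t (fun _ => st) X y measurable_const hX hy

lemma measurable_ms {k : ℕ} : Measurable fun p : (Fin k → E) × E => ms p.1 p.2 :=
  (continuous_snd.comp continuous_obs).measurable

/-- conditional expectation of the terminal payoff `φ` -/
noncomputable def Gf (step : ℕ → S → E → ℝ → S) (φ : S → E → ℝ≥0∞) (j t : ℕ) (st : S) (s : E) :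
    ℝ≥0∞ :=
  ∫⁻ X, φ (runF step j t st X (ms X s)) s ∂(Gam E j)

lemma measurable_integrand (step : ℕ → S → E → ℝ → S)
    (hstep : ∀ t st, Measurable fun p : E × ℝ => step t st p.1 p.2) (φ : S → E → ℝ≥0∞)
    (hφ : ∀ st, Measurable (φ st)) (j t : ℕ) (st : S) :
    Measurable fun p : (Fin j → E) × E => φ (runF step j t st p.1 (ms p.1 p.2)) p.2 := by
  have h1 : Measurable fun q : E × S => φ q.2 q.1 := measurable_from_prod_countable_left hφ
  exact h1.comp (measurable_snd.prodMk
    (measurable_runF' step hstep j t st _ _ measurable_fst measurable_ms))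

lemma measurable_Gf (step : ℕ → S → E → ℝ → S)
    (hstep : ∀ t st, Measurable fun p : E × ℝ => step t st p.1 p.2) (φ : S → E → ℝ≥0∞)
    (hφ : ∀ st, Measurable (φ st)) (j t : ℕ) (st : S) : Measurable (Gf step φ j t st) :=
  (measurable_integrand step hstep φ hφ j t st).lintegral_prod_left'

omit [Countable S] [MeasurableSpace S] [DiscreteMeasurableSpace S] in
lemma Gf_zero (step : ℕ → S → E → ℝ → S) (φ : S → E → ℝ≥0∞) (t : ℕ) (st : S) :
    Gf step φ 0 t st = φ st := by
  funext s
  simp [Gf, runF]

lemma Gf_succ (step : ℕ → S → E → ℝ → S)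
    (hstep : ∀ t st, Measurable fun p : E × ℝ => step t st p.1 p.2) (φ : S → E → ℝ≥0∞)
    (hφ : ∀ st, Measurable (φ st)) (j t : ℕ) (st : S) (s : E) :
    Gf step φ (j + 1) t st s =
      ∫⁻ x, Gf step φ j (t + 1) (step t st x ⟪x, s⟫) s ∂(stdGaussian E) := by
  have hmp := (measurePreserving_piFinSuccAbove (fun _ : Fin (j + 1) => stdGaussian E) 0).symm
  have hm : Measurable fun X : Fin (j + 1) → E => φ (runF step (j + 1) t st X (ms X s)) s :=
    (measurable_integrand step hstep φ hφ (j + 1) t st).comp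
      (measurable_id.prodMk measurable_const)
  rw [Gf, ← hmp.lintegral_comp hm]
  refine (lintegral_prod _ (hm.comp hmp.measurable).aemeasurable).trans ?_
  refine lintegral_congr fun x => lintegral_congr fun X => ?_
  simp only [Function.comp_apply, MeasurableEquiv.piFinSuccAbove_symm_apply, Fin.insertNthEquiv, Equiv.coe_fn_mk,
    Fin.insertNth_zero', runF, ms, Fin.cons_zero, Fin.tail_cons]
  congr 2

lemma Gf_add (step : ℕ → S → E → ℝ → S)
    (hstep : ∀ t st, Measurable fun p : E × ℝ => step t st p.1 p.2) (φ : S → E → ℝ≥0∞)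
    (hφ : ∀ st, Measurable (φ st)) (m j : ℕ) : ∀ (t : ℕ) (st : S) (s : E),
    Gf step φ (m + j) t st s = Gf step (Gf step φ m (t + j)) j t st s := by
  induction j with
  | zero => intro t st s; rw [Gf_zero]; rfl
  | succ j ih =>
    intro t st s
    rw [← add_assoc, Gf_succ step hstep φ hφ,
      Gf_succ step hstep _ (measurable_Gf step hstep φ hφ _ _)]
    refine lintegral_congr fun x => ?_
    rw [ih, show t + 1 + j = t + (j + 1) by ring]

lemma one_le_gro (κ : ℝ≥0∞) (α d k : ℕ) : 1 ≤ gro κ α d k := le_add_self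

lemma gro_mono (κ : ℝ≥0∞) (α d : ℕ) {j k : ℕ} (h : j ≤ k) : gro κ α d j ≤ gro κ α d k := by
  unfold gro
  gcongr
  norm_num

lemma gro_ne_top {κ : ℝ≥0∞} (hκ : κ ≠ ∞) (α d k : ℕ) : gro κ α d k ≠ ∞ := by
  unfold gro
  finiteness

theorem main_frost (σ : Measure E) [SFinite σ] (step : ℕ → S → E → ℝ → S)
    (hstep : ∀ t st, Measurable fun p : E × ℝ => step t st p.1 p.2) (φ : S → E → ℝ≥0∞)
    (hφ : ∀ st, Measurable (φ st)) {N : ℝ≥0∞} (hN0 : N ≠ 0) (hNt : N ≠ ∞) {α q : ℕ}
    (hα : q + q ≤ α) (hF : ∀ st, Frost (σ.withDensity (φ st)) N α) {κ : ℝ≥0∞} (hκ0 : κ ≠ 0)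
    (hκt : κ ≠ ∞)
    (hreach : ∀ t st j, j ≤ q → ∃ F : Finset S, (F.card : ℝ≥0∞) ≤ κ ^ q ∧
      ∀ X y, runF step j t st X y ∈ F) (b : ℕ) :
    ∀ m, m ≤ b * q → ∀ t st, Frost (σ.withDensity (Gf step φ m t st))
      (gro κ α (finrank ℝ E) q ^ b * N) α := by
  induction b with
  | zero =>
    intro m hm t st
    obtain rfl : m = 0 := by omega
    rw [Gf_zero]
    simpa using hF st
  | succ b ih =>
    intro m hm t st
    obtain ⟨j, m', hj, hm', rfl⟩ : ∃ j m', j ≤ q ∧ m' ≤ b * q ∧ m = m' + j := by
      refine ⟨min m q, m - min m q, min_le_right _ _, ?_, ?_⟩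
      · rw [add_mul] at hm; omega
      · omega
    obtain ⟨F, hFc, hFm⟩ := hreach t st j hj
    have hg0 : gro κ α (finrank ℝ E) q ≠ 0 := (zero_lt_one.trans_le (one_le_gro _ _ _ _)).ne'
    have key := block_fun σ F (Gf step φ m' (t + j)) (measurable_Gf step hstep φ hφ _ _)
      (mul_ne_zero (pow_ne_zero b hg0) hN0)
      (ENNReal.mul_ne_top (ENNReal.pow_ne_top (gro_ne_top hκt _ _ _)) hNt)
      (n := q) (k := j) (α := α) (by omega) (fun v => ih m' hm' (t + j) v)
      (fun p => runF step j t st p.1 p.2)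
      (fun v => (measurable_runF' step hstep j t st _ _ measurable_fst measurable_snd)
        (MeasurableSet.of_discrete))
      (fun p => hFm p.1 p.2) hκ0 hκt hFc
    have e : Gf step φ (m' + j) t st = fun s => ∫⁻ X, Gf step φ m' (t + j)
        (runF step j t st X (ms X s)) s ∂(Gam E j) := by
      funext s
      rw [Gf_add step hstep φ hφ]
      rfl
    rw [e]
    refine key.mono ?_
    rw [pow_succ', mul_assoc]
    gcongr
    exact gro_mono _ _ _ hj

end Crest.Agent.R322
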