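import Crest.Agent.R322.Frost

/-!
Row 322 (S0499).  The uniform measure on the sphere: caps, invariance, reflection argument.
-/

set_option autoImplicit false

namespace Crest.Agent.R322

open MeasureTheory Metric Set Module
open scoped ENNReal Pointwise

variable (E : Type*) [NormedAddCommGroup E] [InnerProductSpace ℝ E] [FiniteDimensional ℝ E]
  [MeasurableSpace E] [BorelSpace E]

/-- uniform measure on the sphere type -/
noncomputable def sphU : Measure (sphere (0 : E) 1) :=
  ((volume : Measure E).toSphere univ)⁻¹ • (volume : Measure E).toSphere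

/-- uniform measure on the sphere, as a measure on the ambient space -/
noncomputable def sph : Measure E := (sphU E).map Subtype.val

instance [Nontrivial E] : IsProbabilityMeasure (sphU E) := by
  constructor
  rw [sphU, Measure.smul_apply, smul_eq_mul, ENNReal.inv_mul_cancel]
  · exact fun h => Measure.toSphere_ne_zero (volume : Measure E) (Measure.measure_univ_eq_zero.1 h)
  · exact measure_ne_top _ _

instance [Nontrivial E] : IsProbabilityMeasure (sph E) :=
  Measure.isProbabilityMeasure_map measurable_subtype_coe.aemeasurable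

variable {E}

lemma sph_apply [Nontrivial E] {A : Set E} (hA : MeasurableSet A) :
    sph E A = (volume (ball (0 : E) 1))⁻¹ * volume (Ioo (0 : ℝ) 1 • (A ∩ sphere 0 1)) := by
  rw [sph, Measure.map_apply measurable_subtype_coe hA, sphU, Measure.smul_apply, smul_eq_mul,
    Measure.toSphere_apply_univ, Measure.toSphere_apply' _ (measurable_subtype_coe hA),
    Subtype.image_preimage_coe, inter_comm]
  have h0 : (finrank ℝ E : ℝ≥0∞) ≠ 0 := by
    have : 0 < finrank ℝ E := finrank_pos
    exact_mod_cast this.ne'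
  rw [ENNReal.mul_inv (Or.inl h0) (Or.inl (by simp))]
  calc _ = ((finrank ℝ E : ℝ≥0∞)⁻¹ * finrank ℝ E) * ((volume (ball (0 : E) 1))⁻¹ *
        volume (Ioo (0 : ℝ) 1 • (A ∩ sphere 0 1))) := by ring
    _ = _ := by rw [ENNReal.inv_mul_cancel h0 (by simp), one_mul]

lemma sph_ae_norm : ∀ᵐ s ∂(sph E), ‖s‖ = 1 := by
  rw [sph, ae_map_iff measurable_subtype_coe.aemeasurable
    (isClosed_eq (by fun_prop) continuous_const).measurableSet]
  exact ae_of_all _ fun s => by simp

lemma sph_frost [Nontrivial E] : Frost (sph E) (2 ^ finrank ℝ E) (finrank ℝ E - 1) := by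
  intro a r hr
  obtain ⟨n, hn⟩ : ∃ n, finrank ℝ E = n + 1 :=
    Nat.exists_eq_succ_of_ne_zero (finrank_pos (R := ℝ) (M := E)).ne'
  rcases le_or_gt 1 r with h1 | h1
  · refine prob_le_one.trans ?_
    exact one_le_mul_of_one_le_of_one_le (one_le_pow₀ (by norm_num))
      (one_le_pow₀ (by simpa using h1))
  rw [sph_apply measurableSet_closedBall]
  set C : Set E := Ioo (0 : ℝ) 1 • (closedBall a r ∩ sphere 0 1) with hC
  set B : ℝ≥0∞ := volume (ball (0 : E) 1) with hB
  have hB0 : B ≠ 0 := (measure_ball_pos _ _ one_pos).ne'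
  have hBt : B ≠ ∞ := measure_ball_lt_top.ne
  have hCB : C ⊆ ball 0 1 := by
    rintro _ ⟨t, ht, s, hs, rfl⟩
    have : ‖s‖ = 1 := by simpa using hs.2
    simp only [mem_ball, dist_zero_right, norm_smul, this, mul_one, Real.norm_eq_abs,
      abs_of_pos ht.1]
    exact ht.2
  have hCt : volume C ≠ ∞ := ne_top_of_le_ne_top hBt (measure_mono hCB)
  have hsub : C ⊆ (1 - r) • C ∪ closedBall a (2 * r) := by
    rintro _ ⟨t, ht, s, hs, rfl⟩
    have hs1 : ‖s‖ = 1 := by simpa using hs.2
    rcases lt_or_ge t (1 - r) with h | h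
    · left
      have h2 : 0 < 1 - r := by linarith
      refine ⟨(t / (1 - r)) • s, ⟨t / (1 - r), ⟨div_pos ht.1 h2, (div_lt_one h2).2 h⟩, s, hs, rfl⟩,
        ?_⟩
      simp only [smul_smul]
      congr 1
      field_simp
    · right
      have h3 : dist (t • s) s ≤ r := by
        rw [dist_eq_norm, show t • s - s = (t - 1) • s by rw [sub_smul, one_smul], norm_smul, hs1,
          mul_one, Real.norm_eq_abs, abs_le]
        constructor <;> linarith [ht.2]
      have h4 : dist s a ≤ r := hs.1
      rw [mem_closedBall]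
      linarith [dist_triangle (t • s) s a]
  have h2 : volume C ≤ ENNReal.ofReal (1 - r) * volume C + ENNReal.ofReal ((2 * r) ^ (n + 1)) * B := by
    refine (measure_mono hsub).trans ((measure_union_le _ _).trans ?_)
    rw [Measure.addHaar_smul_of_nonneg _ (by linarith), Measure.addHaar_closedBall _ _
      (by positivity), hn]
    gcongr
    exact pow_le_of_le_one (by linarith) (by linarith) (by omega)
  have h3 : ENNReal.ofReal r * volume C ≤ ENNReal.ofReal ((2 * r) ^ (n + 1)) * B := by
    have e : volume C = ENNReal.ofReal (1 - r) * volume C + ENNReal.ofReal r * volume C := by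
      rw [← add_mul, ← ENNReal.ofReal_add (by linarith) hr.le]
      simp
    conv_lhs at h2 => rw [e]
    exact (ENNReal.add_le_add_iff_left (ENNReal.mul_ne_top ENNReal.ofReal_ne_top hCt)).1 h2
  have hr0 : ENNReal.ofReal r ≠ 0 := by simpa using hr
  have h4 : volume C ≤ B * (2 ^ (n + 1) * ENNReal.ofReal r ^ n) := by
    rw [← ENNReal.mul_le_mul_iff_right hr0 ENNReal.ofReal_ne_top]
    refine h3.trans (le_of_eq ?_)
    rw [ENNReal.ofReal_pow (by positivity), ENNReal.ofReal_mul (by norm_num), ENNReal.ofReal_ofNat]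
    ring
  rw [hn, Nat.add_sub_cancel]
  calc B⁻¹ * volume C ≤ B⁻¹ * (B * (2 ^ (n + 1) * ENNReal.ofReal r ^ n)) := by gcongr
    _ = _ := by rw [← mul_assoc, ENNReal.inv_mul_cancel hB0 hBt, one_mul]

lemma sph_preimage [Nontrivial E] (f : E ≃ₗᵢ[ℝ] E) {A : Set E} (hA : MeasurableSet A) :
    sph E (f ⁻¹' A) = sph E A := by
  rw [sph_apply hA, sph_apply (hA.preimage f.continuous.measurable)]
  congr 1
  rw [← f.measurePreserving.measure_preimage_emb f.toHomeomorph.measurableEmbedding
    (Ioo (0 : ℝ) 1 • (A ∩ sphere 0 1))]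
  congr 1
  ext x
  constructor
  · rintro ⟨t, ht, s, hs, rfl⟩
    exact ⟨t, ht, f s, ⟨hs.1, by simpa using hs.2⟩, by simp⟩
  · rintro ⟨t, ht, s, hs, h⟩
    refine ⟨t, ht, f.symm s, ⟨by simpa using hs.1, by simpa using hs.2⟩, ?_⟩
    apply f.injective
    simpa using h

/-- the Frostman constant of a small cap -/
lemma cap_frost [Nontrivial E] (c : E) {ε : ℝ} (hε : 0 < ε) {α : ℕ} (hα : α + 1 ≤ finrank ℝ E) :
    Frost ((sph E).withDensity ((closedBall c ε).indicator 1))
      (2 ^ finrank ℝ E * ENNReal.ofReal ε ^ (finrank ℝ E - 1 - α)) α := by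
  intro a r hr
  rw [withDensity_indicator_one measurableSet_closedBall,
    Measure.restrict_apply measurableSet_closedBall]
  have e : finrank ℝ E - 1 = (finrank ℝ E - 1 - α) + α := by omega
  rcases le_total r ε with h | h
  · refine (measure_mono inter_subset_left).trans ((sph_frost a r hr).trans ?_)
    conv_lhs => rw [e, pow_add, ← mul_assoc]
    gcongr
  · refine (measure_mono inter_subset_right).trans ((sph_frost c ε hε).trans ?_)
    conv_lhs => rw [e, pow_add, ← mul_assoc]
    gcongr

lemma near_subspace [Nontrivial E] (hd : 14 ≤ finrank ℝ E) (V : Submodule ℝ E)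
    (hV : 4 * finrank ℝ V ≤ finrank ℝ E) :
    sph E {s | ‖s - 0‖ ≤ 1 ∧ dV V (s - 0) ≤ 1 / 10} ≤ ENNReal.ofReal (1 / 4) := by
  refine (cover sph_frost V 0 (by norm_num) (by norm_num)).trans ?_
  obtain ⟨n, hn⟩ := Nat.exists_eq_add_of_le hd
  have e : finrank ℝ E - 1 = 13 + n := by omega
  rw [e, hn, ← ENNReal.ofReal_ofNat, ← ENNReal.ofReal_pow (by norm_num),
    ← ENNReal.ofReal_pow (by norm_num), ← ENNReal.ofReal_mul (by positivity),
    ← ENNReal.ofReal_mul (by positivity)]
  refine ENNReal.ofReal_le_ofReal ?_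
  have h1 : ((1 + 1 / 10) / (1 / 10) : ℝ) ^ finrank ℝ V ≤ 2 ^ (14 + n) := by
    calc ((1 + 1 / 10) / (1 / 10) : ℝ) ^ finrank ℝ V ≤ (2 ^ 4) ^ finrank ℝ V := by
          gcongr; norm_num
      _ = 2 ^ (4 * finrank ℝ V) := by rw [← pow_mul]
      _ ≤ 2 ^ (14 + n) := pow_le_pow_right₀ (by norm_num) (by omega)
  have h2 : ((4 : ℝ) / 5) ^ n ≤ 1 := pow_le_one₀ (by norm_num) (by norm_num)
  calc _ ≤ (2 : ℝ) ^ (14 + n) * (2 ^ (14 + n) * (2 * (1 / 10)) ^ (13 + n)) := by gcongr
    _ = (2 ^ 14 * 2 ^ 14 * (1 / 5) ^ 13) * (4 / 5) ^ n := by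
        have : ((4 : ℝ) / 5) ^ n = 2 ^ n * 2 ^ n * (2 * (1 / 10)) ^ n := by
          rw [← mul_pow, ← mul_pow]; norm_num
        rw [this, pow_add, pow_add]
        ring
    _ ≤ (2 ^ 14 * 2 ^ 14 * (1 / 5) ^ 13) * 1 := by gcongr
    _ ≤ 1 / 4 := by norm_num

/-- the reflection argument -/
lemma reflect [Nontrivial E] (hd : 14 ≤ finrank ℝ E) (V : Submodule ℝ E)
    (hV : 4 * finrank ℝ V ≤ finrank ℝ E) {S : Set E} (hS : MeasurableSet S)
    (h : ∀ s ∈ S, V.reflection s ∈ S → dist s (V.reflection s) ≤ 1 / 5) :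
    sph E S ≤ ENNReal.ofReal (5 / 8) := by
  have hS' : MeasurableSet (V.reflection ⁻¹' S) := hS.preimage V.reflection.continuous.measurable
  have h1 := measure_union_add_inter (μ := sph E) S hS'
  rw [sph_preimage V.reflection hS] at h1
  have h2 : sph E (S ∩ V.reflection ⁻¹' S) ≤ ENNReal.ofReal (1 / 4) := by
    refine le_trans (measure_mono_ae ?_) (near_subspace hd V hV)
    refine sph_ae_norm.mono fun s hs hs' => ⟨by simp [hs], ?_⟩
    have h3 := h s hs'.1 hs'.2
    rw [dist_eq_norm, Submodule.reflection_apply] at h3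
    have e : s - (2 • V.starProjection s - s) = (2 : ℝ) • (s - V.starProjection s) := by
      rw [two_smul, two_smul]; abel
    rw [e, norm_smul] at h3
    simp only [sub_zero, dV]
    norm_num at h3 ⊢
    linarith
  have h3 : sph E S + sph E S ≤ ENNReal.ofReal (5 / 8) + ENNReal.ofReal (5 / 8) := by
    rw [← h1]
    calc _ ≤ 1 + ENNReal.ofReal (1 / 4) := add_le_add prob_le_one h2
      _ = _ := by
        rw [← ENNReal.ofReal_one, ← ENNReal.ofReal_add (by norm_num) (by norm_num),
          ← ENNReal.ofReal_add (by norm_num) (by norm_num)]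
        norm_num
  rw [← two_mul, ← two_mul] at h3
  exact (ENNReal.mul_le_mul_iff_right (by norm_num) (by norm_num)).1 h3

end Crest.Agent.R322
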