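import Crest.Prelude.Def_StreamLearn
import Crest.Agent.R322.Run
import Crest.Agent.R322.Sphere

/-!
Row 322 (S0499).  The two bounds on the success probability of a randomized learner.
-/

set_option autoImplicit false
set_option linter.style.haveILetI false

namespace Crest.Agent.R322

open MeasureTheory Metric Set Module ProbabilityTheory Crest.StreamLearn
open scoped ENNReal RealInnerProductSpace

variable {d T M : ℕ}

/-- extended states: state and stopping index -/
def Sg (L : RLearner d T M) : Type := L.St × Option ℕ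

instance (L : RLearner d T M) : MeasurableSpace (Sg L) := ⊤
instance (L : RLearner d T M) : DiscreteMeasurableSpace (Sg L) := ⟨fun _ => trivial⟩
instance (L : RLearner d T M) : Countable (Sg L) := by
  haveI := L.fin
  unfold Sg
  infer_instance

noncomputable def stepL (L : RLearner d T M) (ω : L.Ω) (t : ℕ) (st : Sg L) (x : E d) (y : ℝ) :
    Sg L :=
  if h : t < T then
    (if st.2.isSome then st else
      if (L.trans ⟨t, h⟩ ω st.1 x y).2 then ((L.trans ⟨t, h⟩ ω st.1 x y).1, some (t + 1))
      else ((L.trans ⟨t, h⟩ ω st.1 x y).1, none))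
  else st

def initL (L : RLearner d T M) (ω : L.Ω) : Sg L :=
  (L.init ω, if L.stopFirst ω then some 0 else none)

def outL (L : RLearner d T M) (ω : L.Ω) (st : Sg L) : E d := L.out (st.2.getD T) ω st.1

lemma output_eq (L : RLearner d T M) (ω : L.Ω) (s : E d) (xs : Fin T → E d) :
    L.output ω s xs = outL L ω (runF (stepL L ω) T 0 (initL L ω) xs (ms xs s)) := by
  have : L.run ω s xs = runF (stepL L ω) T 0 (initL L ω) xs (ms xs s) := by
    rw [runF_eq_foldl, RLearner.run]
    congr 1
    funext st i
    simp only [stepL, zero_add, i.2, dite_true, ms, Fin.eta]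
    rfl
  rw [RLearner.output, this]
  rfl

lemma measurable_stepL (L : RLearner d T M) (t : ℕ) (st : Sg L) :
    @Measurable (L.Ω × (E d × ℝ)) _ (@Prod.instMeasurableSpace _ _ L.mΩ _) _
      fun p => stepL L p.1 t st p.2.1 p.2.2 := by
  letI := L.mΩ
  letI : MeasurableSpace L.St := ⊤
  haveI : DiscreteMeasurableSpace L.St := ⟨fun _ => trivial⟩
  haveI := L.fin
  unfold stepL
  split_ifs with h h2
  · exact measurable_const
  · have h1 := L.trans_measurable ⟨t, h⟩ st.1
    have h3 : Measurable fun q : L.St × Bool =>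
        (if q.2 then (q.1, some (t + 1)) else (q.1, none) : Sg L) := Measurable.of_discrete
    exact h3.comp (h1.1.prodMk h1.2)
  · exact measurable_const

lemma measurable_initL (L : RLearner d T M) : @Measurable _ _ L.mΩ _ (initL L) := by
  letI := L.mΩ
  letI : MeasurableSpace L.St := ⊤
  haveI : DiscreteMeasurableSpace L.St := ⟨fun _ => trivial⟩
  haveI := L.fin
  have h3 : @Measurable _ (Sg L) _ _ fun q : L.St × Bool =>
      (q.1, if q.2 then some 0 else none) := Measurable.of_discrete
  exact h3.comp (L.init_measurable.prodMk L.stopFirst_measurable)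

lemma measurable_outL (L : RLearner d T M) :
    @Measurable (L.Ω × Sg L) _ (@Prod.instMeasurableSpace _ _ L.mΩ _) _
      fun p => outL L p.1 p.2 := by
  letI := L.mΩ
  exact measurable_from_prod_countable_left fun st => L.out_measurable (st.2.getD T) st.1

lemma run_stopped (L : RLearner d T M) (ω : L.Ω) (st : Sg L) (h : st.2.isSome) (j : ℕ) :
    ∀ (t : ℕ) X y, runF (stepL L ω) j t st X y = st := by
  induction j with
  | zero => intro t X y; rfl
  | succ j ih =>
    intro t X y
    have : stepL L ω t st (X 0) (y 0) = st := by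
      unfold stepL
      split_ifs <;> rfl
    rw [runF, this, ih]

lemma run_reach (L : RLearner d T M) (ω : L.Ω) (j : ℕ) :
    ∀ (t : ℕ) (st : Sg L) X y, st.2 = none →
      (runF (stepL L ω) j t st X y).2 = none ∨
        ∃ i < j, (runF (stepL L ω) j t st X y).2 = some (t + i + 1) := by
  induction j with
  | zero => intro t st X y h; exact Or.inl h
  | succ j ih =>
    intro t st X y h
    rw [runF]
    have h1 : (stepL L ω t st (X 0) (y 0)).2 = none ∨
        (stepL L ω t st (X 0) (y 0)).2 = some (t + 1) := by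
      unfold stepL
      split_ifs
      · exact Or.inl h
      · exact Or.inr rfl
      · exact Or.inl rfl
      · exact Or.inl h
    rcases h1 with h1 | h1
    · rcases ih (t + 1) _ (Fin.tail X) (Fin.tail y) h1 with h2 | ⟨i, hi, h2⟩
      · exact Or.inl h2
      · exact Or.inr ⟨i + 1, by omega, by rw [h2]; congr 1; omega⟩
    · rw [run_stopped L ω _ (by rw [h1]; rfl)]
      exact Or.inr ⟨0, by omega, h1⟩

lemma reach (L : RLearner d T M) (ω : L.Ω) (t : ℕ) (st : Sg L) (j : ℕ) :
    ∃ F : Finset (Sg L), F.card ≤ 2 ^ M * (j + 1) ∧ ∀ X y, runF (stepL L ω) j t st X y ∈ F := by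
  classical
  haveI := L.fin
  have hc : Fintype.card L.St ≤ 2 ^ M := by convert L.card_le
  rcases h : st.2 with _ | i
  · refine ⟨(Finset.univ : Finset L.St) ×ˢ
      (insert none ((Finset.range j).image fun i => some (t + i + 1))), ?_, fun X y => ?_⟩
    · refine (Finset.card_product _ _).trans_le (Nat.mul_le_mul (by simpa using hc) ?_)
      refine (Finset.card_insert_le _ _).trans ?_
      have := Finset.card_image_le (s := Finset.range j) (f := fun i => some (t + i + 1))
      simpa using this
    · refine Finset.mem_product.2 ⟨Finset.mem_univ _, ?_⟩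
      rcases run_reach L ω j t st X y h with h2 | ⟨i, hi, h2⟩
      · exact Finset.mem_insert.2 (Or.inl h2)
      · exact Finset.mem_insert.2 (Or.inr (Finset.mem_image.2
          ⟨i, Finset.mem_range.2 hi, h2.symm⟩))
  · refine ⟨{st}, ?_, fun X y => ?_⟩
    · rw [Finset.card_singleton]
      exact Nat.one_le_iff_ne_zero.2 (by positivity)
    · rw [run_stopped L ω st (by rw [h]; rfl)]
      exact Finset.mem_singleton_self _

/-- success set for a fixed seed -/
def good (L : RLearner d T M) (ε : ℝ) (ω : L.Ω) : Set (E d × (Fin T → E d)) :=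
  {p | dist p.1 (outL L ω (runF (stepL L ω) T 0 (initL L ω) p.2 (ms p.2 p.1))) ≤ ε}

lemma measurable_out_run (L : RLearner d T M) {Z : Type*} [MeasurableSpace Z] (ω : Z → L.Ω)
    (hω : @Measurable _ _ _ L.mΩ ω) (s : Z → E d) (hs : Measurable s) (X : Z → Fin T → E d)
    (hX : Measurable X) :
    Measurable fun z => outL L (ω z) (runF (stepL L (ω z)) T 0 (initL L (ω z)) (X z)
      (ms (X z) (s z))) := by
  letI := L.mΩ
  exact (measurable_outL L).comp (hω.prodMk (measurable_runF (stepL L) (measurable_stepL L) ω hω T 0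
    _ X _ ((measurable_initL L).comp hω) hX (measurable_ms.comp (hX.prodMk hs))))

lemma measurableSet_good (L : RLearner d T M) (ε : ℝ) (ω : L.Ω) : MeasurableSet (good L ε ω) :=
  measurableSet_le (measurable_fst.dist (measurable_out_run L (fun _ => ω)
    (@measurable_const _ _ L.mΩ _ _) _ measurable_fst _ measurable_snd)) measurable_const

lemma dist_le_of_arccos {u s : E d} (hu : ‖u‖ = 1) (hs : ‖s‖ = 1) {ε : ℝ}
    (h : Real.arccos ⟪u, s⟫ ≤ ε) : dist s u ≤ ε := by
  have h1 : |⟪u, s⟫| ≤ 1 := by simpa [hu, hs] using abs_real_inner_le_norm u s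
  rw [abs_le] at h1
  have h0 := Real.arccos_nonneg ⟪u, s⟫
  have h2 := Real.one_sub_sq_div_two_le_cos (x := Real.arccos ⟪u, s⟫)
  rw [Real.cos_arccos h1.1 h1.2] at h2
  rw [dist_comm, dist_eq_norm]
  have h3 : ‖u - s‖ ^ 2 ≤ ε ^ 2 := by
    rw [norm_sub_sq_real, hu, hs]
    nlinarith
  exact (pow_le_pow_iff_left₀ (norm_nonneg _) (h0.trans h) two_ne_zero).1 h3

lemma successProb_le [Nontrivial (E d)] (L : RLearner d T M) (ε : ℝ) (B : ℝ≥0∞) (hB : B ≠ ∞)
    (h : ∀ ω, ((sph (E d)).prod (Gam (E d) T)) (good L ε ω) ≤ B) :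
    L.successProb ε ≤ B.toReal := by
  letI := L.mΩ
  haveI := L.prob
  unfold RLearner.successProb
  refine ENNReal.toReal_mono hB ?_
  let W : Set (Sphere d × (L.Ω × (Fin T → E d))) := {p | ((p.1 : E d), p.2.2) ∈ good L ε p.2.1}
  have hW : MeasurableSet W :=
    measurableSet_le ((measurable_subtype_coe.comp measurable_fst).dist
      (measurable_out_run L (fun p : Sphere d × (L.Ω × (Fin T → E d)) => p.2.1) (by fun_prop) _
        (measurable_subtype_coe.comp measurable_fst) _ (by fun_prop))) measurable_const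
  refine (measure_mono (t := W) fun p hp => ?_).trans ?_
  · have hp' : Real.arccos ⟪L.output p.2.1 p.1 p.2.2, (p.1 : E d)⟫ ≤ ε := hp
    rw [output_eq] at hp'
    exact dist_le_of_arccos (L.out_unit _ _ _) (by simp) hp'
  change ((sphU (E d)).prod (L.ρ.prod (Gam (E d) T))) W ≤ B
  let W' : Set ((Sphere d × L.Ω) × (Fin T → E d)) := (fun q => (q.1.1, (q.1.2, q.2))) ⁻¹' W
  have hW' : MeasurableSet W' := hW.preimage (by fun_prop)
  have hg : Measurable fun q : Sphere d × L.Ω => Gam (E d) T (Prod.mk q ⁻¹' W') :=
    measurable_measure_prodMk_left hW'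
  calc ((sphU (E d)).prod (L.ρ.prod (Gam (E d) T))) W
      = ∫⁻ s, ∫⁻ ω, Gam (E d) T (Prod.mk (s, ω) ⁻¹' W') ∂L.ρ ∂(sphU (E d)) := by
        rw [Measure.prod_apply hW]
        refine lintegral_congr fun s => ?_
        rw [Measure.prod_apply (hW.preimage measurable_prodMk_left)]
        rfl
    _ = ∫⁻ ω, ∫⁻ s, Gam (E d) T (Prod.mk (s, ω) ⁻¹' W') ∂(sphU (E d)) ∂L.ρ :=
        lintegral_lintegral_swap hg.aemeasurable
    _ ≤ ∫⁻ _, B ∂L.ρ := by
        refine lintegral_mono fun ω => le_trans (le_of_eq ?_) (h ω)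
        rw [Measure.prod_apply (measurableSet_good L ε ω), sph, lintegral_map
          (measurable_measure_prodMk_left (measurableSet_good L ε ω)) measurable_subtype_coe]
        rfl
    _ = B := by simp

lemma good_le_few [Nontrivial (E d)] (L : RLearner d T M) {ε : ℝ} (hε : ε ≤ 1 / 10) (hd : 14 ≤ d)
    (hT : 4 * T ≤ d) (ω : L.Ω) :
    ((sph (E d)).prod (Gam (E d) T)) (good L ε ω) ≤ ENNReal.ofReal (5 / 8) := by
  rw [Measure.prod_apply_symm (measurableSet_good L ε ω)]
  refine (lintegral_mono (g := fun _ => ENNReal.ofReal (5 / 8)) fun X => ?_).trans (by simp)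
  have hfr : finrank ℝ (E d) = d := by simp
  refine reflect (by omega) (Submodule.span ℝ (range X)) ?_
    ((measurableSet_good L ε ω).preimage measurable_prodMk_right) fun s hs hs' => ?_
  · have : finrank ℝ (Submodule.span ℝ (range X)) ≤ T :=
      (finrank_range_le_card (R := ℝ) X).trans (by simp)
    omega
  · have e : ms X ((Submodule.span ℝ (range X)).reflection s) = ms X s := by
      funext j
      have h1 : (Submodule.span ℝ (range X)).reflection (X j) = X j :=
        Submodule.reflection_mem_subspace_eq_self (Submodule.subset_span (mem_range_self j))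
      simp only [ms]
      conv_lhs => rw [← h1]
      exact LinearIsometryEquiv.inner_map_map _ _ _
    simp only [good, mem_preimage, mem_ofPred_eq, e] at hs hs'
    have := dist_triangle_right s ((Submodule.span ℝ (range X)).reflection s)
      (outL L ω (runF (stepL L ω) T 0 (initL L ω) X (ms X s)))
    linarith

lemma good_le_main [Nontrivial (E d)] (L : RLearner d T M) {ε : ℝ} (hε : 0 < ε) {q b : ℕ}
    (hq : q + q + 1 ≤ d) (hb : T ≤ b * q) {κ : ℕ} (hκ0 : κ ≠ 0) (hκ : 2 ^ M * (q + 1) ≤ κ ^ q)
    (ω : L.Ω) :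
    ((sph (E d)).prod (Gam (E d) T)) (good L ε ω) ≤
      gro κ (q + q) d q ^ b * (2 ^ d * ENNReal.ofReal ε ^ (d - 1 - (q + q))) := by
  letI := L.mΩ
  have hfr : finrank ℝ (E d) = d := by simp
  let φ : Sg L → E d → ℝ≥0∞ := fun st => (closedBall (outL L ω st) ε).indicator 1
  have hstep : ∀ t st, Measurable fun p : E d × ℝ => stepL L ω t st p.1 p.2 := fun t st =>
    (measurable_stepL L t st).comp (measurable_const.prodMk measurable_id)
  have hφ : ∀ st, Measurable (φ st) := fun st => measurable_one.indicator measurableSet_closedBall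
  have key := main_frost (sph (E d)) (stepL L ω) hstep φ hφ
    (N := 2 ^ d * ENNReal.ofReal ε ^ (d - 1 - (q + q)))
    (mul_ne_zero (by simp) (pow_ne_zero _ (by simpa using hε))) (by finiteness) (α := q + q)
    (q := q) le_rfl
    (fun st => by simpa only [hfr] using cap_frost (outL L ω st) hε (α := q + q) (by omega))
    (κ := κ) (by exact_mod_cast hκ0) (by simp)
    (fun t st j hj => by
      obtain ⟨F, hF, hm⟩ := reach L ω t st j
      refine ⟨F, ?_, hm⟩
      have : F.card ≤ κ ^ q := hF.trans ((Nat.mul_le_mul_left _ (by omega)).trans hκ)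
      exact_mod_cast this) b T hb 0 (initL L ω) 0 1 one_pos
  rw [hfr, ENNReal.ofReal_one, one_pow, mul_one, withDensity_apply _ measurableSet_closedBall,
    Measure.restrict_eq_self_of_ae_mem (sph_ae_norm.mono fun s hs => by simp [hs])] at key
  refine le_trans (le_of_eq ?_) key
  rw [Measure.prod_apply (measurableSet_good L ε ω)]
  refine lintegral_congr fun s => ?_
  rw [Gf, ← lintegral_indicator_one ((measurableSet_good L ε ω).preimage measurable_prodMk_left)]
  rfl

end Crest.Agent.R322
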