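import Mathlib

/-!
Row 322 (S0499).  Frostman measures: neighbourhoods of flats and the Riesz-type energy bound.
-/

set_option autoImplicit false

namespace Crest.Agent.R322

open MeasureTheory Metric Set Module
open scoped ENNReal

variable {E : Type*} [NormedAddCommGroup E] [InnerProductSpace ℝ E] [FiniteDimensional ℝ E]
  [MeasurableSpace E] [BorelSpace E]

/-- `μ` gives every closed ball of radius `r` mass at most `N r^α`. -/
def Frost (μ : Measure E) (N : ℝ≥0∞) (α : ℕ) : Prop :=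
  ∀ (a : E) (r : ℝ), 0 < r → μ (closedBall a r) ≤ N * ENNReal.ofReal r ^ α

/-- distance of `u` to the subspace `V` -/
noncomputable def dV (V : Submodule ℝ E) (u : E) : ℝ := ‖u - V.starProjection u‖

omit [MeasurableSpace E] [BorelSpace E] in
lemma dV_nonneg (V : Submodule ℝ E) (u : E) : 0 ≤ dV V u := norm_nonneg _

omit [MeasurableSpace E] [BorelSpace E] in
lemma dV_le (V : Submodule ℝ E) (u : E) : dV V u ≤ ‖u‖ := by
  unfold dV
  have h : u - V.starProjection u = Vᗮ.starProjection u := by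
    rw [Submodule.starProjection_orthogonal_val]
  rw [h]
  exact Submodule.norm_starProjection_apply_le _ _

omit [MeasurableSpace E] [BorelSpace E] in
lemma continuous_dV (V : Submodule ℝ E) : Continuous (dV V) := by
  unfold dV
  fun_prop

omit [InnerProductSpace ℝ E] [FiniteDimensional ℝ E] [BorelSpace E] in
lemma Frost.mono {μ : Measure E} {N N' : ℝ≥0∞} {α : ℕ} (h : Frost μ N α) (hN : N ≤ N') :
    Frost μ N' α := fun a r hr => (h a r hr).trans (by gcongr)

lemma measurableSet_nbhd (V : Submodule ℝ E) (s0 : E) (R ρ : ℝ) :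
    MeasurableSet {s | ‖s - s0‖ ≤ R ∧ dV V (s - s0) ≤ ρ} := by
  have h1 : IsClosed {s : E | ‖s - s0‖ ≤ R} := isClosed_le (by fun_prop) continuous_const
  have h2 : IsClosed {s : E | dV V (s - s0) ≤ ρ} :=
    isClosed_le ((continuous_dV V).comp (by fun_prop)) continuous_const
  exact (h1.inter h2).measurableSet

/-- mass of the `ρ`-neighbourhood of a flat inside a ball -/
lemma cover {μ : Measure E} [SFinite μ] {N : ℝ≥0∞} {α : ℕ} (h : Frost μ N α)
    (V : Submodule ℝ E) (s0 : E) {R ρ : ℝ} (hR : 0 ≤ R) (hρ : 0 < ρ) :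
    μ {s | ‖s - s0‖ ≤ R ∧ dV V (s - s0) ≤ ρ} ≤
      ENNReal.ofReal (((R + ρ) / ρ) ^ finrank ℝ V) * (N * ENNReal.ofReal (2 * ρ) ^ α) := by
  set S : Set E := {s | ‖s - s0‖ ≤ R ∧ dV V (s - s0) ≤ ρ} with hS
  have hSm : MeasurableSet S := measurableSet_nbhd V s0 R ρ
  let ν : Measure V := volume
  let W : Set (E × V) := {p | ‖p.2‖ ≤ R + ρ ∧ dist p.1 (s0 + (p.2 : E)) ≤ 2 * ρ}
  have hW : MeasurableSet W := by
    have h1 : IsClosed {p : E × V | ‖p.2‖ ≤ R + ρ} := isClosed_le (by fun_prop) continuous_const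
    have h2 : IsClosed {p : E × V | dist p.1 (s0 + (p.2 : E)) ≤ 2 * ρ} :=
      isClosed_le (by fun_prop) continuous_const
    exact (h1.inter h2).measurableSet
  set c : ℝ≥0∞ := ν (closedBall 0 1) with hc
  have hc0 : c ≠ 0 := (measure_closedBall_pos ν _ one_pos).ne'
  have hct : c ≠ ∞ := measure_closedBall_lt_top.ne
  have h1 : ENNReal.ofReal (ρ ^ finrank ℝ V) * c * μ S ≤ (μ.prod ν) W := by
    rw [Measure.prod_apply hW, ← setLIntegral_const]
    refine le_trans ?_ (setLIntegral_le_lintegral S _)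
    refine setLIntegral_mono' hSm fun s hs => ?_
    rw [hc, ← Measure.addHaar_closedBall' ν (V.orthogonalProjectionOnto (s - s0)) hρ.le]
    refine measure_mono fun z hz => ?_
    rw [mem_closedBall, dist_eq_norm] at hz
    have hz0 : ‖V.orthogonalProjectionOnto (s - s0)‖ ≤ R :=
      (Submodule.norm_orthogonalProjectionOnto_apply_le _ _).trans hs.1
    refine ⟨?_, ?_⟩
    · calc ‖z‖ = ‖V.orthogonalProjectionOnto (s - s0) + (z - V.orthogonalProjectionOnto (s - s0))‖ := by
            congr 1; abel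
        _ ≤ _ := (norm_add_le _ _).trans (add_le_add hz0 hz)
    · rw [dist_eq_norm]
      have e : s - (s0 + (z : E)) = (s - s0 - V.starProjection (s - s0)) -
          ((z - V.orthogonalProjectionOnto (s - s0) : V) : E) := by
        rw [Submodule.coe_sub, Submodule.starProjection_apply]; abel
      rw [e]
      refine (norm_sub_le _ _).trans ?_
      have h2 : ‖s - s0 - V.starProjection (s - s0)‖ ≤ ρ := hs.2
      have h3 : ‖((z - V.orthogonalProjectionOnto (s - s0) : V) : E)‖ ≤ ρ := hz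
      linarith
  have h2 : (μ.prod ν) W ≤ ENNReal.ofReal ((R + ρ) ^ finrank ℝ V) * c *
      (N * ENNReal.ofReal (2 * ρ) ^ α) := by
    rw [Measure.prod_apply_symm hW, hc,
      ← Measure.addHaar_closedBall' ν 0 (by positivity : 0 ≤ R + ρ), mul_comm,
      ← setLIntegral_const, ← lintegral_indicator measurableSet_closedBall]
    refine lintegral_mono fun z => ?_
    by_cases hz : z ∈ closedBall (0 : V) (R + ρ)
    · rw [indicator_of_mem hz]
      refine le_trans (measure_mono fun s hs => ?_) (h (s0 + z) (2 * ρ) (by positivity))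
      exact hs.2
    · rw [indicator_of_notMem hz]
      have : (fun x => (x, z)) ⁻¹' W = ∅ := by
        ext s
        simp only [W, mem_preimage, mem_ofPred_eq, mem_empty_iff_false, iff_false, not_and]
        intro h1
        exact absurd (by simpa using h1) hz
      rw [this]; simp
  have h3 := h1.trans h2
  have hρp : 0 < ρ ^ finrank ℝ V := by positivity
  have e : ENNReal.ofReal ((R + ρ) ^ finrank ℝ V) * c * (N * ENNReal.ofReal (2 * ρ) ^ α) =
      ENNReal.ofReal (ρ ^ finrank ℝ V) * c * (ENNReal.ofReal (((R + ρ) / ρ) ^ finrank ℝ V) *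
        (N * ENNReal.ofReal (2 * ρ) ^ α)) := by
    have : (R + ρ) ^ finrank ℝ V = ρ ^ finrank ℝ V * ((R + ρ) / ρ) ^ finrank ℝ V := by
      rw [div_pow]; field_simp
    rw [this, ENNReal.ofReal_mul hρp.le]
    ring
  rw [e] at h3
  refine (ENNReal.mul_le_mul_iff_right ?_ ?_).1 h3
  · exact mul_ne_zero (by simpa using hρp) hc0
  · exact ENNReal.mul_ne_top ENNReal.ofReal_ne_top hct

lemma dyadic_pointwise {δ r : ℝ} (hr : 0 < r) (h0 : 0 ≤ δ) (hδ : δ ≤ 2 * r) (k : ℕ) :
    (ENNReal.ofReal δ)⁻¹ ^ k ≤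
      ∑' j : ℕ, if δ ≤ 2 * r / 2 ^ j then ENNReal.ofReal (2 ^ j / r) ^ k else 0 := by
  rcases h0.eq_or_lt with h | h
  · subst h
    have : (∑' j : ℕ, if (0 : ℝ) ≤ 2 * r / 2 ^ j then ENNReal.ofReal (2 ^ j / r) ^ k else 0) = ∞ := by
      refine top_le_iff.1 ?_
      have h1 : (∑' _ : ℕ, ENNReal.ofReal (1 / r) ^ k) = ∞ :=
        ENNReal.tsum_const_eq_top_of_ne_zero (pow_ne_zero _ (by simpa using hr))
      rw [← h1]
      refine ENNReal.tsum_le_tsum fun j => ?_
      rw [if_pos (by positivity)]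
      gcongr
      exact one_le_pow₀ (by norm_num)
    rw [this]; exact le_top
  · obtain ⟨j, hj1, hj2⟩ := exists_nat_pow_near (x := 2 * r / δ) (y := 2)
      (by rw [le_div_iff₀ h]; linarith) (by norm_num)
    refine le_trans ?_ (ENNReal.le_tsum j)
    rw [le_div_iff₀ h] at hj1
    rw [div_lt_iff₀ h] at hj2
    rw [if_pos (by rw [le_div_iff₀ (by positivity)]; linarith)]
    gcongr
    rw [← ENNReal.ofReal_inv_of_pos h]
    refine ENNReal.ofReal_le_ofReal ?_
    rw [inv_eq_one_div, div_le_div_iff₀ h hr]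
    rw [pow_succ] at hj2
    linarith

lemma energy_term {r : ℝ} (hr : 0 < r) (j k p α : ℕ) (hα : p + k + 1 ≤ α) :
    (2 ^ j / r) ^ k * (((2 * r + 2 * r / 2 ^ j) / (2 * r / 2 ^ j)) ^ p * (2 * (2 * r / 2 ^ j)) ^ α)
      ≤ 8 ^ α * r ^ (α - k) * (1 / 2) ^ j := by
  obtain ⟨e, rfl⟩ := Nat.exists_eq_add_of_le hα
  set t : ℝ := 2 ^ j with ht
  have ht1 : 1 ≤ t := one_le_pow₀ (by norm_num)
  have ht0 : 0 < t := by linarith
  have e1 : (2 * r + 2 * r / t) / (2 * r / t) = t + 1 := by field_simp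
  have e2 : p + k + 1 + e - k = p + 1 + e := by omega
  have e3 : ((1 : ℝ) / 2) ^ j = 1 / t := by rw [ht, one_div_pow]
  rw [e1, e2, e3]
  have h1 : (t + 1) ^ p ≤ (2 * t) ^ p := by gcongr; linarith
  have h2 : (2 : ℝ) ^ p ≤ 2 ^ (p + k + 1 + e) := pow_le_pow_right₀ (by norm_num) (by omega)
  have h3 : (1 : ℝ) ≤ t ^ e := one_le_pow₀ ht1
  calc (t / r) ^ k * ((t + 1) ^ p * (2 * (2 * r / t)) ^ (p + k + 1 + e))
      ≤ (t / r) ^ k * ((2 * t) ^ p * (2 * (2 * r / t)) ^ (p + k + 1 + e)) := by gcongr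
    _ = 2 ^ p * 4 ^ (p + k + 1 + e) * r ^ (p + 1 + e) * (1 / t) * (1 / t ^ e) := by
        have : (2 * (2 * r / t)) = 4 * r / t := by ring
        rw [this]
        simp only [div_pow, mul_pow]
        field_simp
        ring
    _ ≤ 2 ^ (p + k + 1 + e) * 4 ^ (p + k + 1 + e) * r ^ (p + 1 + e) * (1 / t) * 1 := by
        gcongr
        rw [div_le_one (by positivity)]; exact h3
    _ = 8 ^ (p + k + 1 + e) * r ^ (p + 1 + e) * (1 / t) := by
        rw [← mul_pow]; norm_num

/-- the energy bound -/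
lemma energy {μ : Measure E} [SFinite μ] {N : ℝ≥0∞} {α : ℕ} (h : Frost μ N α)
    (V : Submodule ℝ E) {k : ℕ} (hV : finrank ℝ V + k + 1 ≤ α) {a s0 : E} {r : ℝ} (hr : 0 < r)
    (hs0 : s0 ∈ closedBall a r) :
    ∫⁻ s in closedBall a r, (ENNReal.ofReal (dV V (s - s0)))⁻¹ ^ k ∂μ ≤
      2 * 8 ^ α * N * ENNReal.ofReal r ^ (α - k) := by
  let S : ℕ → Set E := fun j => {s | ‖s - s0‖ ≤ 2 * r ∧ dV V (s - s0) ≤ 2 * r / 2 ^ j}
  have hSm : ∀ j, MeasurableSet (S j) := fun j => measurableSet_nbhd V s0 _ _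
  calc ∫⁻ s in closedBall a r, (ENNReal.ofReal (dV V (s - s0)))⁻¹ ^ k ∂μ
      ≤ ∫⁻ s in closedBall a r, ∑' j : ℕ,
          (S j).indicator (fun _ => ENNReal.ofReal (2 ^ j / r) ^ k) s ∂μ := by
        refine setLIntegral_mono' measurableSet_closedBall fun s hs => ?_
        have h2 : ‖s - s0‖ ≤ 2 * r := by
          rw [mem_closedBall] at hs hs0
          have := dist_triangle_right s s0 a
          rw [← dist_eq_norm]; linarith
        refine (dyadic_pointwise hr (dV_nonneg _ _) ((dV_le _ _).trans h2) k).trans ?_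
        refine ENNReal.tsum_le_tsum fun j => ?_
        split_ifs with hj
        · rw [indicator_of_mem (show s ∈ S j from ⟨h2, hj⟩)]
        · exact zero_le
    _ ≤ ∫⁻ s, ∑' j : ℕ, (S j).indicator (fun _ => ENNReal.ofReal (2 ^ j / r) ^ k) s ∂μ :=
        setLIntegral_le_lintegral _ _
    _ = ∑' j : ℕ, ENNReal.ofReal (2 ^ j / r) ^ k * μ (S j) := by
        rw [lintegral_tsum fun j => (measurable_const.indicator (hSm j)).aemeasurable]
        simp_rw [lintegral_indicator_const (hSm _)]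
    _ ≤ ∑' j : ℕ, (8 ^ α * N * ENNReal.ofReal r ^ (α - k)) * (2⁻¹) ^ j := by
        refine ENNReal.tsum_le_tsum fun j => ?_
        have hρ : 0 < 2 * r / 2 ^ j := by positivity
        have h1 := cover h V s0 (R := 2 * r) (by positivity) hρ
        have h2 := energy_term hr j k (finrank ℝ V) α hV
        calc ENNReal.ofReal (2 ^ j / r) ^ k * μ (S j)
            ≤ ENNReal.ofReal (2 ^ j / r) ^ k * (ENNReal.ofReal
              (((2 * r + 2 * r / 2 ^ j) / (2 * r / 2 ^ j)) ^ finrank ℝ V) *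
                (N * ENNReal.ofReal (2 * (2 * r / 2 ^ j)) ^ α)) := by gcongr
          _ = N * ENNReal.ofReal ((2 ^ j / r) ^ k * (((2 * r + 2 * r / 2 ^ j) / (2 * r / 2 ^ j)) ^
                finrank ℝ V * (2 * (2 * r / 2 ^ j)) ^ α)) := by
              rw [ENNReal.ofReal_mul (p := (2 ^ j / r) ^ k) (by positivity),
                ENNReal.ofReal_mul (q := (2 * (2 * r / 2 ^ j)) ^ α) (by positivity),
                ENNReal.ofReal_pow (by positivity) k, ENNReal.ofReal_pow (by positivity) α]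
              ring
          _ ≤ N * ENNReal.ofReal (8 ^ α * r ^ (α - k) * (1 / 2) ^ j) := by gcongr
          _ = _ := by
              rw [ENNReal.ofReal_mul (by positivity), ENNReal.ofReal_mul (by positivity),
                ENNReal.ofReal_pow (by positivity), ENNReal.ofReal_pow hr.le,
                ENNReal.ofReal_pow (by positivity), one_div,
                ENNReal.ofReal_inv_of_pos (by norm_num)]
              simp only [ENNReal.ofReal_ofNat]
              ring
    _ = 2 * 8 ^ α * N * ENNReal.ofReal r ^ (α - k) := by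
        rw [ENNReal.tsum_mul_left, ENNReal.tsum_geometric, ENNReal.one_sub_inv_two, inv_inv]
        ring

end Crest.Agent.R322
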